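import Vale.Agent.P093.Stm

/-! P093: two semigroups of positive matrix functions. -/

open Filter Topology Set
open scoped ENNReal NNReal ComplexOrder Matrix

namespace Vale.Agent.P093

namespace Amx

variable {X : Type} [TopologicalSpace X]

theorem pw : ∃ P : C(X, ℝ) → ℝ → C(X, ℝ), ∀ φ s, 0 < s → ∀ x, P φ s x = φ x ^ s :=
  ⟨fun φ s => ⟨fun x => φ x ^ |s|, φ.continuous.rpow_const fun _ => Or.inr (abs_nonneg s)⟩,
    fun φ s hs x => by rw [ContinuousMap.coe_mk, abs_of_pos hs]⟩

theorem ite {P : Prop} [Decidable P] (f : X → ℂ) (hf : Continuous f) :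
    Continuous fun x => if P then f x else 0 := by
  split_ifs
  · exact hf
  · exact continuous_const

theorem add {a s t : ℝ} (ha : 0 ≤ a) (hs : 0 < s) (ht : 0 < t) :
    ((a ^ (s + t) : ℝ) : ℂ) = ((a ^ s : ℝ) : ℂ) * ((a ^ t : ℝ) : ℂ) := by
  rw [Real.rpow_add' ha (add_pos hs ht).ne', Complex.ofReal_mul]

end Amx

theorem s_am : S_am := by
  intro X _
  obtain ⟨P, hP⟩ := Amx.pw (X := X)
  refine ⟨fun Λ _ _ φ u p σ hF => ?_, fun g q hg => ?_⟩
  · obtain ⟨c, hc⟩ : ∃ c : ℝ → Fin p → Fin p → C(X, ℂ), ∀ s, 0 < s → ∀ t t' x, c s t t' x =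
        if (σ t).1 = (σ t').1 then ((φ (σ t).1 x ^ s : ℝ) : ℂ) *
          pr (u (σ t).1 x) (σ t).2 (σ t').2 else 0 :=
      ⟨fun s t t' => ⟨fun x => if (σ t).1 = (σ t').1 then ((P (φ (σ t).1) s x : ℝ) : ℂ) *
          pr (u (σ t).1 x) (σ t).2 (σ t').2 else 0,
        Amx.ite _ ((Complex.continuous_ofReal.comp (P _ s).continuous).mul
          ((pr_cont _ _).comp (u _).continuous))⟩,
        fun s hs t t' x => by rw [ContinuousMap.coe_mk, hP _ _ hs]⟩
    have hS : ∀ s : ℝ, 0 < s → ∀ x, (∑ l, P (φ l) s) x = ∑ l, φ l x ^ s := fun s hs x => by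
      simp only [ContinuousMap.sum_apply, hP _ _ hs]
    refine ⟨c, fun s => ∑ l, P (φ l) s, ⟨fun s t hs ht i k => ?_, fun s hs i k => ?_,
      fun s hs x => ?_, fun s t hs hst x => ?_, Fintype.card Λ, fun s hs x => ?_⟩, hS,
      fun t t' x => by rw [hc 1 one_pos, Real.rpow_one]⟩
    · ext x
      rw [ContinuousMap.sum_apply, ← σ.symm.sum_comp, Fintype.sum_prod_type,
        Finset.sum_eq_single (σ i).1 (fun l _ hl => Finset.sum_eq_zero fun b _ => by
          rw [ContinuousMap.mul_apply, hc s hs, σ.apply_symm_apply, if_neg hl.symm, zero_mul])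
          (by simp), hc _ (add_pos hs ht)]
      simp only [ContinuousMap.mul_apply, hc s hs, hc t ht, σ.apply_symm_apply, if_true]
      split_ifs with h
      · by_cases h0 : φ (σ i).1 x = 0
        · simp [h0, hs.ne', (add_pos hs ht).ne']
        · rw [Amx.add (hF.nn _ x) hs ht]
          conv_rhs => rw [← pr_mul (hF.un _ x h0), Matrix.mul_apply, Finset.mul_sum]
          exact Finset.sum_congr rfl fun b _ => by ring
      · simp
    · ext x
      rw [ContinuousMap.star_apply, hc s hs, hc s hs]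
      by_cases h : (σ i).1 = (σ k).1
      · rw [if_pos h, if_pos h.symm, star_mul', pr_star, h, Complex.star_def, Complex.conj_ofReal]
      · rw [if_neg h, if_neg (Ne.symm h), star_zero]
    · rw [hS s hs, ← σ.symm.sum_comp, Fintype.sum_prod_type, Complex.ofReal_sum]
      refine Finset.sum_congr rfl fun l _ => ?_
      simp only [hc s hs, σ.apply_symm_apply, if_true]
      rw [← Finset.mul_sum, pr_tr, mul_one]
    · rw [hS s hs, hS t (hs.trans_le hst)]
      exact Finset.sum_le_sum fun l _ =>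
        Real.rpow_le_rpow_of_exponent_ge' (hF.nn l x) (hF.le l x) hs.le hst
    · rw [hS s hs]
      refine (Finset.sum_le_card_nsmul _ _ 1 fun l _ =>
        Real.rpow_le_one (hF.nn l x) (hF.le l x) hs.le).trans ?_
      simp
  · obtain ⟨c, hc⟩ : ∃ c : ℝ → Fin q → Fin q → C(X, ℂ), ∀ s, 0 < s → ∀ i k x, c s i k x =
        if i = k then ((g x ^ s : ℝ) : ℂ) else 0 :=
      ⟨fun s i k => ⟨fun x => if i = k then ((P g s x : ℝ) : ℂ) else 0,
        Amx.ite _ (Complex.continuous_ofReal.comp (P _ s).continuous)⟩,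
        fun s hs t t' x => by rw [ContinuousMap.coe_mk, hP _ _ hs]⟩
    have hS : ∀ s : ℝ, 0 < s → ∀ x, ((q : ℝ) • P g s) x = q * g x ^ s := fun s hs x => by
      rw [ContinuousMap.smul_apply, hP _ _ hs, smul_eq_mul]
    refine ⟨c, fun s => (q : ℝ) • P g s, ⟨fun s t hs ht i k => ?_, fun s hs i k => ?_,
      fun s hs x => ?_, fun s t hs hst x => ?_, q, fun s hs x => ?_⟩,
      fun x => by rw [hS 1 one_pos, Real.rpow_one],
      fun t t' x => by rw [hc 1 one_pos, Real.rpow_one]⟩
    · ext x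
      simp only [ContinuousMap.sum_apply, ContinuousMap.mul_apply, hc s hs, hc t ht,
        hc _ (add_pos hs ht), ite_mul, zero_mul, Finset.sum_ite_eq', Finset.mem_univ, if_true,
        mul_ite, mul_zero, Amx.add (hg x).1 hs ht]
    · ext x
      rw [ContinuousMap.star_apply, hc s hs, hc s hs]
      by_cases h : i = k
      · rw [if_pos h, if_pos h.symm, Complex.star_def, Complex.conj_ofReal]
      · rw [if_neg h, if_neg (Ne.symm h), star_zero]
    · rw [hS s hs]
      simp [hc s hs]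
    · rw [hS s hs, hS t (hs.trans_le hst)]
      exact mul_le_mul_of_nonneg_left
        (Real.rpow_le_rpow_of_exponent_ge' (hg x).1 (hg x).2 hs.le hst) q.cast_nonneg
    · rw [hS s hs]
      exact mul_le_of_le_one_right q.cast_nonneg (Real.rpow_le_one (hg x).1 (hg x).2 hs.le)

end Vale.Agent.P093
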