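import Vale.Agent.P093.Stm

/-! P093: the finite dimensional consequence of Cuntz subequivalence. -/

open Filter Topology Set
open scoped ENNReal NNReal ComplexOrder Matrix

namespace Vale.Agent.P093

namespace Bandx

variable {X : Type}

/-- A vector supported on a piece of one orbit. -/
noncomputable def vec (x : X) (N : ℕ) (c : ℕ → ℂ) : L2 X :=
  ∑ i ∈ Finset.range N, c i • dl (x, (i : ℤ))

theorem op_vec (T : L2 X →L[ℂ] L2 X) (x : X) (N : ℕ) (c : ℕ → ℂ) (z : X × ℤ) :
    T (vec x N c) z = ∑ i ∈ Finset.range N, T (dl (x, (i : ℤ))) z * c i := by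
  rw [vec, map_sum, lp.coeFn_sum, Finset.sum_apply]
  refine Finset.sum_congr rfl fun i _ => ?_
  rw [map_smul, lp.coeFn_smul, Pi.smul_apply, smul_eq_mul, mul_comm]

theorem vec_apply (x : X) {N : ℕ} (c : ℕ → ℂ) {i : ℕ} (hi : i ∈ Finset.range N) :
    vec x N c (x, (i : ℤ)) = c i := by
  classical
  refine (op_vec (ContinuousLinearMap.id ℂ _) x N c _).trans ?_
  rw [Finset.sum_eq_single_of_mem i hi fun k _ hk => ?_]
  · simp [dl]
  · simp [dl, hk.symm]

theorem inner_vec (x : X) (N : ℕ) (c : ℕ → ℂ) (w : L2 X) :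
    inner ℂ (vec x N c) w = ∑ i ∈ Finset.range N, star (c i) * w (x, (i : ℤ)) := by
  classical
  rw [vec, sum_inner]
  refine Finset.sum_congr rfl fun i _ => ?_
  rw [inner_smul_left, dl, lp.inner_single_left]
  simp

theorem norm_vec (x : X) (N : ℕ) (c : ℕ → ℂ) :
    ‖vec x N c‖ ^ 2 = ∑ i ∈ Finset.range N, ‖c i‖ ^ 2 := by
  rw [← inner_self_eq_norm_sq (𝕜 := ℂ), inner_vec, map_sum]
  refine Finset.sum_congr rfl fun i hi => ?_
  rw [vec_apply x c hi, ← inner_self_eq_norm_sq (𝕜 := ℂ), RCLike.inner_apply']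
  rfl

theorem est {H : Type} [NormedAddCommGroup H] [InnerProductSpace ℂ H] {p : ℕ} (w : Fin p → H)
    (E : Fin p → Fin p → H →L[ℂ] H) (hE : ∀ t t', ‖E t t'‖ ≤ 1 / (2 * (p + 1))) :
    ‖∑ t, ∑ t', inner ℂ (w t) (E t t' (w t'))‖ ≤ 1 / 2 * ∑ t, ‖w t‖ ^ 2 := by
  have h1 : ∀ t t', ‖inner ℂ (w t) (E t t' (w t'))‖ ≤ 1 / (2 * (p + 1)) * (‖w t‖ * ‖w t'‖) :=
    fun t t' => (norm_inner_le_norm _ _).trans (by
      rw [mul_left_comm]
      exact mul_le_mul_of_nonneg_left ((E t t').le_of_opNorm_le (hE t t') _) (norm_nonneg _))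
  refine (norm_sum_le_of_le _ fun t _ => norm_sum_le_of_le _ fun t' _ => h1 t t').trans ?_
  have h2 := sq_sum_le_card_mul_sum_sq (s := Finset.univ) (f := fun t => ‖w t‖)
  rw [Finset.card_univ, Fintype.card_fin, sq, Finset.sum_mul_sum] at h2
  simp only [← Finset.mul_sum (a := 1 / (2 * ((p : ℝ) + 1)))]
  have h3 : 0 ≤ ∑ t, ‖w t‖ ^ 2 := by positivity
  rw [one_div, inv_mul_le_iff₀ (by positivity)]
  linarith

theorem approx [TopologicalSpace X] {A : Type} [CStarAlgebra A]
    {j : A →⋆ₐ[ℂ] (L2 X →L[ℂ] L2 X)} (hj : Den j) {p q : ℕ} (c : A) (a : Fin p → Fin p → A)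
    {δ : ℝ} (x : Fin q → Fin p → A) (hx : ∀ t t', ‖∑ s, star (x s t) * c * x s t' - a t t'‖ < δ) :
    ∃ v : Fin q → Fin p → A, (∀ s t, Band (j (v s t))) ∧
      ∀ t t', ‖∑ s, star (v s t) * c * v s t' - a t t'‖ < δ := by
  have h1 : Dense {v | Band (j v)} := fun z => Metric.mem_closure_iff.2 fun ε hε =>
    let ⟨v, h2, h3⟩ := hj z ε hε
    ⟨v, h2, by rwa [dist_eq_norm]⟩
  have h2 : Dense (Set.pi univ fun _ : Fin q => Set.pi univ fun _ : Fin p => {v | Band (j v)}) :=
    dense_pi _ fun _ _ => dense_pi _ fun _ _ => h1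
  have h3 : IsOpen {v : Fin q → Fin p → A |
      ∀ t t', ‖∑ s, star (v s t) * c * v s t' - a t t'‖ < δ} := by
    simp only [ofPred_forall]
    exact isOpen_iInter_of_finite fun t => isOpen_iInter_of_finite fun t' =>
      isOpen_lt (by fun_prop) continuous_const
  obtain ⟨v, h4, h5⟩ := h2.exists_mem_open h3 ⟨x, hx⟩
  exact ⟨v, fun s t => h4 s trivial t trivial, h5⟩

theorem quad {A : Type} [CStarAlgebra A] (j : A →⋆ₐ[ℂ] (L2 X →L[ℂ] L2 X)) {p q : ℕ} (c : A)
    (v : Fin q → Fin p → A) (w : Fin p → L2 X) (h : ∀ s, j c (∑ t, j (v s t) (w t)) = 0) :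
    ∑ t, ∑ t', inner ℂ (w t) (j (∑ s, star (v s t) * c * v s t') (w t')) = 0 := by
  have e : ∀ t t', inner ℂ (w t) (j (∑ s, star (v s t) * c * v s t') (w t'))
      = ∑ s, inner ℂ (j (v s t) (w t)) (j c (j (v s t') (w t'))) := fun t t' => by
    rw [map_sum, _root_.sum_apply, inner_sum]
    refine Finset.sum_congr rfl fun s _ => ?_
    rw [map_mul, map_mul, map_star, ContinuousLinearMap.star_eq_adjoint, mul_assoc,
      mul_apply_eq_comp, ContinuousLinearMap.adjoint_inner_right]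
    rfl
  refine Finset.sum_eq_zero fun t _ => ?_
  simp only [e]
  rw [Finset.sum_comm]
  refine Finset.sum_eq_zero fun s _ => ?_
  rw [← inner_sum, ← map_sum, h s, inner_zero_right]

end Bandx

open Bandx in
theorem s_band : S_band := by
  intro X _ h A _ _ _ j ρ p q a b g hj hb ⟨y, hy⟩
  let G : C(X, ℂ) := ⟨fun x => g x, by fun_prop⟩
  have hb' : ∀ s t, ρ.π (b s t) = if s = t then ρ.π G else 0 := fun s t => by
    split_ifs with e
    · exact congrArg _ (ContinuousMap.ext fun x => (hb s t x).trans (if_pos e))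
    · rw [show b s t = 0 from ContinuousMap.ext fun x => (hb s t x).trans (if_neg e), map_zero]
  obtain ⟨n, hn⟩ := (hy.eventually (gt_mem_nhds (show (0 : ℝ) < 1 / (2 * (p + 1)) by
    positivity))).exists
  obtain ⟨v, hv, hE⟩ := approx hj (ρ.π G) (fun t t' => ρ.π (a t t')) (fun s t => y n s t)
    fun t t' => lt_of_eq_of_lt (by
      simp [CStarMatrix.mul_apply, mat, hb']) ((CStarMatrix.norm_entry_le_norm (i := t)
        (j := t')).trans_lt hn)
  choose R hR hc using hv
  refine ⟨Finset.univ.sup fun z : Fin q × Fin p => R z.1 z.2,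
    fun x k s i t => j (v s t) (dl (x, (i : ℤ))) (x, k), fun k s i t => hc s t i k,
    fun x N ξ H => ?_⟩
  have h0 := quad j (ρ.π G) v (fun t => vec x N fun i => ξ i t) fun s => by
    ext z
    rw [ρ.jπ, lp.coeFn_sum, Finset.sum_apply]
    simp only [op_vec]
    by_cases hz : z.1 = x ∧ z.2 ∈ Finset.Ico
        (-((Finset.univ.sup fun z : Fin q × Fin p => R z.1 z.2 : ℕ) : ℤ))
        (N + (Finset.univ.sup fun z : Fin q × Fin p => R z.1 z.2 : ℕ))
    · obtain ⟨x', k⟩ := z
      obtain ⟨rfl, hk⟩ := hz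
      rw [Finset.sum_comm]
      exact H k hk s
    · rw [Finset.sum_eq_zero fun t _ => Finset.sum_eq_zero fun i hi => ?_, mul_zero]
      · rfl
      · have h1 : R s t ≤ Finset.univ.sup fun z : Fin q × Fin p => R z.1 z.2 :=
          Finset.le_sup (f := fun z : Fin q × Fin p => R z.1 z.2) (Finset.mem_univ (s, t))
        rw [hR s t z _ ?_, zero_mul]
        rw [Finset.mem_Ico] at hz
        rw [Finset.mem_range] at hi
        by_cases h2 : z.1 = x
        · simp only [h2, true_and] at hz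
          refine Or.inr (lt_abs.2 ?_)
          simp only
          omega
        · exact Or.inl h2
  have h1 := est (fun t => vec x N fun i => ξ i t)
    (fun t t' => j (∑ s, star (v s t) * ρ.π G * v s t' - ρ.π (a t t'))) fun t t' =>
      (NonUnitalStarAlgHom.norm_apply_le j _).trans (hE t t').le
  simp only [map_sub, _root_.sub_apply, inner_sub_right, Finset.sum_sub_distrib, h0,
    zero_sub, norm_neg, norm_vec] at h1
  rw [Finset.sum_comm (f := fun i t => ‖ξ i t‖ ^ 2)]
  refine ((Complex.re_le_norm _).trans (le_of_eq (congrArg _ ?_))).trans h1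
  rw [Finset.sum_comm]
  refine Finset.sum_congr rfl fun t _ => ?_
  rw [Finset.sum_comm]
  refine Finset.sum_congr rfl fun t' _ => ?_
  rw [inner_vec]
  refine Finset.sum_congr rfl fun i hi => ?_
  rw [ρ.jπ, vec_apply x _ hi, zp_nat, mul_assoc]

end Vale.Agent.P093
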