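import Vale.Agent.P093.Stm

/-! P093: from an abstract Hilbert space with a basis to the sequence space. -/

open Set

namespace Vale.Agent.P093

variable {X : Type} [TopologicalSpace X] {h : X ≃ₜ X} {H : Type} [NormedAddCommGroup H]
  [InnerProductSpace ℂ H] [CompleteSpace H] (b : HilbertBasis (X × ℤ) ℂ H)

omit [TopologicalSpace X] in
theorem brg_iff (T : H →L[ℂ] H) (m : X × ℤ → ℂ) (σ : X × ℤ ≃ X × ℤ) :
    (∀ p, T (b p) = m (σ p) • b (σ p)) ↔
      ∀ (ξ : L2 X) p, b.repr.conjStarAlgEquiv T ξ p = m p * ξ (σ.symm p) := by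
  classical
  constructor
  · intro hT ξ p
    have e : (lp.evalCLM ℂ (fun _ : X × ℤ => ℂ) 2 p).comp (b.repr.conjStarAlgEquiv T) =
        m p • lp.evalCLM ℂ (fun _ : X × ℤ => ℂ) 2 (σ.symm p) := by
      refine lp.ext_continuousLinearMap (by simp) fun q => ContinuousLinearMap.ext_ring ?_
      change b.repr (T (b.repr.symm (lp.single 2 q 1))) p =
        m p * (lp.single 2 q (1 : ℂ) : L2 X) (σ.symm p)
      rw [b.repr_symm_single, hT, map_smul, b.repr_self, lp.coeFn_smul, Pi.smul_apply,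
        lp.single_apply, lp.single_apply, Pi.single_apply, Pi.single_apply]
      by_cases e : p = σ q
      · simp [e]
      · rw [if_neg e, if_neg (fun k => e (by rw [← k, σ.apply_symm_apply])), smul_zero, mul_zero]
    exact congrArg (· ξ) e
  · intro hT p
    refine b.repr.injective (lp.ext (funext fun q => ?_))
    have := hT (b.repr (b p)) q
    rw [LinearIsometryEquiv.conjStarAlgEquiv_apply_apply, b.repr.symm_apply_apply] at this
    rw [this, map_smul, b.repr_self, b.repr_self, lp.coeFn_smul, Pi.smul_apply,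
      lp.single_apply, lp.single_apply, Pi.single_apply, Pi.single_apply]
    by_cases e : q = σ p
    · simp [e]
    · rw [if_neg e, if_neg (fun k => e (by rw [← k, σ.apply_symm_apply])), smul_zero, mul_zero]

theorem brg_gens (T : H →L[ℂ] H) : T ∈ regGens h b ↔ b.repr.conjStarAlgEquiv T ∈ gens h := by
  refine or_congr (exists_congr fun f => ?_) ?_
  · exact brg_iff b T (fun p => f ((h ^ p.2) p.1)) (Equiv.refl _)
  · simpa [sub_eq_add_neg] using
      brg_iff b T (fun _ => 1) ((Equiv.refl X).prodCongr (Equiv.addRight 1))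

theorem brg_gen {A B C : Type} [CStarAlgebra A] [CStarAlgebra B] [CStarAlgebra C]
    {j : A →⋆ₐ[ℂ] B} {S : Set B} (hj : IsGen j S) (e : B ≃⋆ₐ[ℂ] C) :
    ∃ j' : A →⋆ₐ[ℂ] C, IsGen j' (e '' S) := by
  refine ⟨(e : B →⋆ₐ[ℂ] C).comp j, e.injective.comp hj.1, ?_⟩
  have i : Isometry e := StarAlgEquiv.isometry _
  rw [StarAlgHom.coe_comp, range_comp, hj.2]
  refine (i.isClosedEmbedding.closure_image_eq _).symm.trans (congrArg closure ?_)
  exact congrArg SetLike.coe (StarAlgHom.map_adjoin (e : B →⋆ₐ[ℂ] C) S)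

theorem brg {A : Type} [CStarAlgebra A] {j : A →⋆ₐ[ℂ] (H →L[ℂ] H)} (hj : IsGen j (regGens h b)) :
    ∃ j' : A →⋆ₐ[ℂ] (L2 X →L[ℂ] L2 X), IsCrossed h j' := by
  have e : b.repr.conjStarAlgEquiv '' regGens h b = gens h := by
    ext T
    obtain ⟨T, rfl⟩ := b.repr.conjStarAlgEquiv.surjective T
    exact b.repr.conjStarAlgEquiv.injective.mem_set_image.trans (brg_gens b T)
  obtain ⟨j', h'⟩ := brg_gen hj b.repr.conjStarAlgEquiv
  rw [e] at h'
  exact ⟨j', h'⟩

end Vale.Agent.P093
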