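import Vale.Agent.P093.Stm

/-! P093: the Borsuk-Ulam theorem for triangular characters. -/

open Set

namespace Vale.Agent.P093

open Vale.Agent.P173 Vale.Agent.P173.BUT

namespace Bux

theorem comb {X ι κ : Type*} [Fintype ι] [DecidableEq ι] [DecidableEq κ]
    (T : ι → X → X) (hTT : ∀ i k, T i ∘ T k = T k ∘ T i) (χ : κ → Finset ι) (j : κ → ι)
    (ω : ι → ℤ) (hj : ∀ c, j c ∈ χ c) (hω : ∀ c, ∀ i ∈ χ c, i ≠ j c → ω i < ω (j c))
    (co : X → κ) (sg : X → Bool) (hco : ∀ i x, co (T i x) = co x)
    (hsg : ∀ i x, sg (T i x) = if i ∈ χ (co x) then !sg x else sg x) (D : ι → ℤ)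
    (C : Finset κ) (a : (ι → ℤ) → Ch X) (lam : (ι → ℤ) → ZMod 2) (ν : ι → ℤ)
    (hν : lam ν = 1) (hlam : ∀ n, n ≠ ν → ∑ i, ω i * ν i ≤ ∑ i, ω i * n i → lam n = 0)
    (hD : ∀ i, ν i + ((C.filter fun c => j c = i).card : ℤ) ≤ D i)
    (hsupp : ∀ n, ∀ l ∈ (a n).support,
      (∀ x ∈ l, co x ∈ C) ∧ ∀ x ∈ l, ∀ y ∈ l, co x = co y → sg x = sg y)
    (hrel : ∀ n : ι → ℤ, (∀ i, n i ≤ D i) →
      bd (a n) = (∑ i, (a (n - Pi.single i 1) + push (T i) (a (n - Pi.single i 1)))) +
        lam n • Finsupp.single [] 1) : False := by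
  classical
  induction C using Finset.induction_on generalizing a lam ν with
  | empty =>
    have h1 : ∀ n, a n = Finsupp.single [] (a n []) := fun n =>
      Finsupp.support_subset_singleton.1 fun l hl => Finset.mem_singleton.2
        (List.eq_nil_iff_forall_not_mem.2 fun x hx => by simpa using (hsupp n l hl).1 x hx)
    have h2 := hrel ν (by simpa using hD)
    rw [Finset.sum_eq_zero fun i _ => by rw [h1 (ν - _), buc_push, List.map_nil, buc_two], h1 ν,
      bd, Finsupp.linearCombination_single, bdL, smul_zero, hν, one_smul, zero_add] at h2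
    exact one_ne_zero (Finsupp.single_eq_zero.1 h2.symm)
  | insert c C hc ih =>
    let p : X → Bool := fun x => decide (co x = c)
    let φ : ι → Bool → Bool := fun i s => if i ∈ χ c then !s else s
    have hφ : ∀ i, Function.Involutive (φ i) := fun i s => by
      simp only [φ]
      split_ifs <;> simp
    have hT : ∀ i w z, bucL p sg w (push (T i) z) = push (T i) (bucL p sg (w.map (φ i)) z) :=
      fun i => bucL_push p sg (hφ i) (fun x => by simp only [p, hco]) fun x hx => by
        rw [hsg, of_decide_eq_true hx]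
    let G : Set (List X) :=
      {l | (∀ x ∈ l, co x ∈ C) ∧ ∀ x ∈ l, ∀ y ∈ l, co x = co y → sg x = sg y}
    have hs : ∀ w n, bucL p sg w (a n) ∈ Finsupp.supported (ZMod 2) (ZMod 2) G :=
      fun w n l' hl' => by
      obtain ⟨l, hl, rfl⟩ := bucL_supp p sg w _ l' hl'
      refine ⟨fun x hx => ?_, fun x hx y hy =>
        (hsupp n l hl).2 x (List.mem_filter.1 hx).1 y (List.mem_filter.1 hy).1⟩
      rw [List.mem_filter] at hx
      exact (Finset.mem_insert.1 ((hsupp n l hl).1 x hx.1)).resolve_left (by simpa [p] using hx.2)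
    have hW : ∀ (n : ι → ℤ) i, ∑ k, ω k * (n - Pi.single i 1 : ι → ℤ) k = ∑ k, ω k * n k - ω i :=
      fun n i => by simp [mul_sub, Finset.sum_sub_distrib, Pi.single_apply]
    have hW' : ∑ k, ω k * (ν + Pi.single (j c) 1 : ι → ℤ) k = ∑ k, ω k * ν k + ω (j c) := by
      simp [mul_add, Finset.sum_add_distrib, Pi.single_apply]
    have hz : ∀ n : ι → ℤ, ∑ k, ω k * ν k + ω (j c) ≤ ∑ k, ω k * n k → ∀ i ∈ χ c, i ≠ j c →
        lam (n - Pi.single i 1) = 0 := fun n hn i hi hij => by
      have := hω c i hi hij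
      have e := hW n i
      exact hlam _ (fun h => by rw [h] at e; omega) (by omega)
    refine ih (fun n => bucL p sg [true] (a n) +
      ∑ i ∈ χ c, push (T i) (bucL p sg [] (a (n - Pi.single i 1))))
      (fun n => ∑ i ∈ χ c, lam (n - Pi.single i 1)) (ν + Pi.single (j c) 1) ?_ (fun n hn h => ?_)
      (fun i => le_trans ?_ (hD i)) (fun n => ?_) fun n hn => ?_
    · rw [Finset.sum_eq_single_of_mem (j c) (hj c) (hz _ hW'.ge), add_sub_cancel_right, hν]
    · rw [hW'] at h
      rw [Finset.sum_eq_single_of_mem (j c) (hj c) (hz _ h)]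
      exact hlam _ (fun e => hn (by rw [← e, sub_add_cancel])) (by rw [hW]; omega)
    · rw [Finset.filter_insert, Pi.add_apply, Pi.single_apply]
      by_cases h : j c = i
      · rw [if_pos h, if_pos h.symm, Finset.card_insert_of_notMem (by simp [hc])]
        push_cast
        omega
      · rw [if_neg h, if_neg (Ne.symm h), add_zero]
    · refine (show _ ∈ Finsupp.supported (ZMod 2) (ZMod 2) G from add_mem (hs _ _)
        (sum_mem fun i _ => map_supp _ _ (fun l hl => ?_) (hs _ _)))
      rw [buc_push]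
      refine Finsupp.single_mem_supported _ _ ⟨fun x hx => ?_, fun x hx y hy h => ?_⟩
      · obtain ⟨x, h, rfl⟩ := List.mem_map.1 hx
        rw [hco]
        exact hl.1 x h
      · obtain ⟨x, hx', rfl⟩ := List.mem_map.1 hx
        obtain ⟨y, hy', rfl⟩ := List.mem_map.1 hy
        rw [hco, hco] at h
        rw [hsg, hsg, h, hl.2 x hx' y hy' h]
    have e1 : bucL p sg [] (Finsupp.single [] 1) = Finsupp.single [] 1 := by
      rw [bucL_single]
      simp [bucG]
    have e2 : bucL p sg [true] (Finsupp.single [] 1) = 0 := by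
      rw [bucL_single]
      simp [bucG]
    have h1 : ∀ i, bd (push (T i) (bucL p sg [] (a (n - Pi.single i 1)))) =
        (∑ k, (push (T i) (bucL p sg [] (a (n - Pi.single k 1 - Pi.single i 1))) +
          push (T k) (push (T i) (bucL p sg [] (a (n - Pi.single k 1 - Pi.single i 1))))) +
          lam (n - Pi.single i 1) • Finsupp.single [] 1) +
        (push (T i) (bucL p sg [true] (a (n - Pi.single i 1))) +
          push (T i) (bucL p sg [false] (a (n - Pi.single i 1)))) := fun i => by
      have h := congrArg (push (T i) ∘ₗ bucL p sg []) (hrel (n - Pi.single i 1) fun k =>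
        le_trans (sub_le_self _ (by rw [Pi.single_apply]; positivity)) (hn k))
      simp only [LinearMap.comp_apply, bucL_bd_nil, map_add, map_sum, map_smul, e1, hT,
        List.map_nil, buc_push, push_push, hTT i, sub_right_comm n (Pi.single i 1)] at h
      simp only [push_push, ← h, bd_push]
      linear_combination (norm := abel)
        - buc_two (push (T i) (bucL p sg [true] (a (n - Pi.single i 1))))
        - buc_two (push (T i) (bucL p sg [false] (a (n - Pi.single i 1))))
    have h2 := congrArg (bucL p sg [true]) (hrel n hn)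
    rw [bucL_bd_one p sg _ _ fun l hl x hx y hy h h' => (hsupp _ l hl).2 x hx y hy
      ((of_decide_eq_true h).trans (of_decide_eq_true h').symm), map_add, map_smul, e2, smul_zero,
      add_zero, map_sum] at h2
    have h3 : ∑ i ∈ χ c, (push (T i) (bucL p sg [true] (a (n - Pi.single i 1))) +
          push (T i) (bucL p sg [false] (a (n - Pi.single i 1)))) =
        ∑ i, (push (T i) (bucL p sg [true] (a (n - Pi.single i 1))) +
          push (T i) (bucL p sg [φ i true] (a (n - Pi.single i 1)))) := by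
      rw [← Finset.sum_subset (Finset.subset_univ (χ c)) fun i _ hi => by
        simp only [φ, if_neg hi, buc_two]]
      exact Finset.sum_congr rfl fun i hi => by simp only [φ, if_pos hi, Bool.not_true]
    rw [map_add, map_sum, h2, Finset.sum_congr rfl fun i _ => h1 i, Finset.sum_add_distrib
      (s := χ c), h3, Finset.sum_add_distrib (s := χ c), Finset.sum_comm, Finset.sum_smul]
    simp only [map_add, map_sum, hT, List.map_cons, List.map_nil, Finset.sum_add_distrib]
    linear_combination (norm := abel)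
      buc_two (∑ i, push (T i) (bucL p sg [φ i true] (a (n - Pi.single i 1))))

end Bux

theorem s_bu : S_bu := by
  intro m d κ _ χ j ω ν Φ hj hω hν hd hc hodd
  classical
  by_contra hcon
  push Not at hcon
  have hne : (fun _ => Pi.single 0 1) ∈ Sub m d ν :=
    ⟨fun i => by simp [Fin.sum_univ_succ], fun i a h => Pi.single_eq_of_ne (by
      rintro rfl; simp at h) _⟩
  have hK : IsCompact (Sub m d ν) := by
    refine isCompact_sph.inter_right (t := {y | ∀ i (a : Fin (d + 1)), ν i < a.val → y i a = 0}) ?_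
    simp only [Set.ofPred_forall]
    exact isClosed_iInter fun i => isClosed_iInter fun a => isClosed_iInter fun _ =>
      isClosed_eq (by fun_prop) continuous_const
  rcases isEmpty_or_nonempty κ with he | he
  · exact hcon _ hne (funext fun i => he.elim i)
  obtain ⟨y₀, hy₀, hmin⟩ := hK.exists_isMinOn ⟨_, hne⟩ hc.norm
  obtain ⟨ε, hε, hu⟩ := Metric.uniformContinuousOn_iff.1
    (hK.uniformContinuousOn_of_continuous hc) _ (norm_pos_iff.2 (hcon _ hy₀))
  choose A hA using fun v : κ → ℝ => Finite.exists_max v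
  let Y := {y : Sph m d // y.1 ∈ Sub m d ν}
  have hf : ∀ i (y : Y), (flp i y.1).1 ∈ Sub m d ν := fun i y =>
    ⟨(flp i y.1).2, fun k a h => by
      rw [flp_val]
      split_ifs <;> simp [y.2.2 k a h]⟩
  let T : Fin m → Y → Y := fun i y => ⟨flp i y.1, hf i y⟩
  let co : Y → κ := fun y => A fun k => |Φ y.1 k|
  have hco : ∀ y : Y, ‖Φ y₀‖ ≤ |Φ y.1 (co y)| := fun y =>
    (hmin y.2).trans ((pi_norm_le_iff_of_nonneg (abs_nonneg _)).2 fun i =>
      hA (fun k => |Φ y.1 k|) i)
  have hT : ∀ i y, co (T i y) = co y := fun i y => congrArg A (funext fun k => by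
    rw [show Φ (T i y).1 k = _ from hodd y.1 y.2 i k]
    split_ifs <;> simp)
  let y₁ : Y := ⟨⟨_, hne.1⟩, hne⟩
  let π : Sph m d → Y := fun y => if h : y.1 ∈ Sub m d ν then ⟨y, h⟩ else y₁
  have hπ : ∀ (y : Sph m d) (h : y.1 ∈ Sub m d ν), π y = ⟨y, h⟩ := fun y h => dif_pos h
  obtain ⟨h, -, b, c⟩ := exists_chains (m := m) (d := d) (m * d + 1) ε hε
  have hH : ∀ n : Fin m → ℤ, (∀ i, n i ≤ ν i) → ∀ y ∈ Hem (d := d) n, y.1 ∈ Sub m d ν :=
    fun n hn y hy => ⟨y.2, fun i a h => (hy i a).1 ((hn i).trans_lt (by exact_mod_cast h))⟩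
  refine Bux.comb T (fun i k => funext fun y => Subtype.ext (congrFun (flp_comm i k) y.1)) χ j
    (fun i => ω i) hj (fun c i hi h => by exact_mod_cast hω c i hi h) co
    (fun y => decide (0 < Φ y.1 (co y))) hT (fun i y => ?_) (fun i => ν i) Finset.univ
    (fun n => if ∀ i, n i ≤ ν i then push π (h n) else 0) (fun n => if n = 0 then 1 else 0) 0
    (if_pos rfl) (fun n hn _ => if_neg hn) (fun i => by simpa using hν i) (fun n l hl => ?_)
    fun n hn => ?_
  · have h0 : Φ y.1 (co y) ≠ 0 := abs_pos.1 ((norm_pos_iff.2 (hcon _ hy₀)).trans_le (hco y))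
    rw [hT, show Φ (T i y).1 (co y) = _ from hodd y.1 y.2 i _]
    split_ifs
    · rcases h0.lt_or_gt with h | h <;> simp [h, h.not_gt]
    · rfl
  · refine ⟨by simp, fun x hx y hy hxy => ?_⟩
    split_ifs at hl with hn
    swap
    · simp at hl
    replace hl := Finset.mem_image.1 (Finsupp.mapDomain_support hl)
    obtain ⟨l, hl, rfl⟩ := hl
    rw [List.mem_map] at hx hy
    obtain ⟨x, hx, rfl⟩ := hx
    obtain ⟨y, hy, rfl⟩ := hy
    have hd := (b n hl x hx).2 y hy
    rw [hπ x (hH n hn x (b n hl x hx).1), hπ y (hH n hn y (b n hl y hy).1)] at hxy ⊢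
    generalize hH n hn x (b n hl x hx).1 = qx at hxy ⊢
    generalize hH n hn y (b n hl y hy).1 = qy at hxy ⊢
    have h1 := (dist_le_pi_dist (Φ x) (Φ y) (co ⟨x, qx⟩)).trans_lt (hu x qx y qy hd)
    have h2 := hco ⟨x, qx⟩
    have h3 := hco ⟨y, qy⟩
    rw [Real.dist_eq, abs_lt] at h1
    rw [← hxy] at h3 ⊢
    rw [decide_eq_decide]
    constructor <;> intro h <;> by_contra h' <;> push Not at h'
    · rw [abs_of_pos h] at h2
      linarith
    · rw [abs_of_pos h] at h3
      linarith
  · have hle : ∀ i k, (n - Pi.single i 1 : Fin m → ℤ) k ≤ ν k := fun i k =>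
      le_trans (sub_le_self _ (by rw [Pi.single_apply]; positivity)) (hn k)
    have hn' : ∀ i, n i ≤ d := fun i => (hn i).trans (by exact_mod_cast hd i)
    have e : ∀ i, push π (push (flp i) (h (n - Pi.single i 1))) =
        push (T i) (push π (h (n - Pi.single i 1))) := fun i => by
      have k := b (n - Pi.single i 1)
      rw [BUT.Small, Finsupp.supported_eq_span_single] at k
      refine LinearMap.eqOn_span (f := push π ∘ₗ push (flp i)) (g := push (T i) ∘ₗ push π) ?_ k
      rintro _ ⟨l, hl, rfl⟩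
      simp only [LinearMap.comp_apply, buc_push, List.map_map]
      refine congrArg (Finsupp.single · 1) (List.map_congr_left fun x hx => ?_)
      have q := hH _ (hle i) x (hl x hx).1
      rw [Function.comp_apply, Function.comp_apply, hπ x q, hπ _ (hf i ⟨x, q⟩)]
    simp only [if_pos hn, if_pos (hle _)]
    rw [bd_push, c n hn' ((Finset.sum_le_card_nsmul _ _ (d : ℤ) fun i _ => hn' i).trans_lt
      (by simp)), map_add, map_sum]
    simp only [map_add, e]
    split_ifs
    · rw [buc_push, one_smul, List.map_nil]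
    · rw [map_zero, zero_smul]

end Vale.Agent.P093
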