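import Vale.Agent.P093.Stm

/-! P093: covers of small order adapted to a grid. -/

open Filter Topology Set
open scoped ENNReal NNReal ComplexOrder Matrix

namespace Vale.Agent.P093

open Vale.Agent.P173 (Sph)

namespace Covx

variable {X : Type} {ι : Type}

/-- The members of the cover. -/
def W (G : X → ι → ℝ) (η : ℝ) (p : Finset ι × (ι → ℤ)) : Set X :=
  {x | (∀ i, i ∈ p.1 → |G x i - p.2 i| < η) ∧
    (∀ i, i ∉ p.1 → (p.2 i : ℝ) < G x i ∧ G x i < p.2 i + 1) ∧
    ∀ i i', i ∈ p.1 → i' ∉ p.1 → |Real.sin (G x i * Real.pi)| < |Real.sin (G x i' * Real.pi)|}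

theorem W_open [TopologicalSpace X] [Finite ι] {G : X → ι → ℝ} (hG : Continuous G) (η : ℝ)
    (p : Finset ι × (ι → ℤ)) : IsOpen (W G η p) := by
  refine IsOpen.and ?_ (IsOpen.and ?_ ?_) <;> simp only [Set.ofPred_forall]
  · exact isOpen_iInter_of_finite fun i => isOpen_iInter_of_finite fun _ =>
      isOpen_lt (by fun_prop) continuous_const
  · exact isOpen_iInter_of_finite fun i => isOpen_iInter_of_finite fun _ =>
      (isOpen_lt continuous_const (by fun_prop)).and (isOpen_lt (by fun_prop) continuous_const)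
  · exact isOpen_iInter_of_finite fun i => isOpen_iInter_of_finite fun i' =>
      isOpen_iInter_of_finite fun _ => isOpen_iInter_of_finite fun _ =>
        isOpen_lt (by fun_prop) (by fun_prop)

theorem W_cov [Fintype ι] (G : X → ι → ℝ) {η : ℝ} (hη : 0 < η) (x : X) : ∃ p, x ∈ W G η p := by
  classical
  refine ⟨(Finset.univ.filter fun i => G x i = ⌊G x i⌋, fun i => ⌊G x i⌋), fun i hi => ?_,
    fun i hi => ⟨?_, Int.lt_floor_add_one _⟩, fun i i' hi hi' => ?_⟩
  · rw [← (Finset.mem_filter.1 hi).2, sub_self, abs_zero]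
    exact hη
  · exact lt_of_le_of_ne (Int.floor_le _) fun e =>
      hi (Finset.mem_filter.2 ⟨Finset.mem_univ _, e.symm⟩)
  · rw [(Finset.mem_filter.1 hi).2, Real.sin_int_mul_pi, abs_zero, abs_pos]
    intro e
    obtain ⟨n, hn⟩ := Real.sin_eq_zero_iff.1 e
    have k : G x i' = n := (mul_right_cancel₀ Real.pi_ne_zero hn).symm
    exact hi' (Finset.mem_filter.2 ⟨Finset.mem_univ _, by rw [k, Int.floor_intCast]⟩)

theorem W_inj {G : X → ι → ℝ} {η : ℝ} (hη : η ≤ 1 / 2) {x : X} {p q : Finset ι × (ι → ℤ)}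
    (hp : x ∈ W G η p) (hq : x ∈ W G η q) (h : p.1.card = q.1.card) : p = q := by
  classical
  have e : p.1 = q.1 := by
    by_contra hne
    obtain ⟨i, i1, i2⟩ := Finset.not_subset.1 fun k => hne (Finset.eq_of_subset_of_card_le k h.ge)
    obtain ⟨j, j1, j2⟩ := Finset.not_subset.1 fun k =>
      hne (Finset.eq_of_subset_of_card_le k h.le).symm
    exact lt_asymm (hp.2.2 i j i1 j2) (hq.2.2 j i j1 i2)
  refine Prod.ext e (funext fun i => ?_)
  have k : (p.2 i : ℝ) < q.2 i + 1 ∧ (q.2 i : ℝ) < p.2 i + 1 := by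
    by_cases hi : i ∈ p.1
    · have h1 := abs_lt.1 (hp.1 i hi)
      have h2 := abs_lt.1 (hq.1 i (e ▸ hi))
      constructor <;> linarith [h1.1, h1.2, h2.1, h2.2]
    · have h1 := hp.2.1 i hi
      have h2 := hq.2.1 i (e ▸ hi)
      constructor <;> linarith [h1.1, h1.2, h2.1, h2.2]
  have k1 : p.2 i < q.2 i + 1 := by exact_mod_cast k.1
  have k2 : q.2 i < p.2 i + 1 := by exact_mod_cast k.2
  omega

end Covx

theorem s_cov : S_cov := by
  classical
  intro X _ _ ι _ G η D hG hη hD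
  have h0 : 0 < min η (1 / 2) := lt_min hη (by norm_num)
  obtain ⟨t, ht⟩ := isCompact_univ.elim_finite_subcover (Covx.W G (min η (1 / 2)))
    (Covx.W_open hG _) fun x _ => mem_iUnion.2 (Covx.W_cov G h0 x)
  refine ⟨t.image (Covx.W G (min η (1 / 2))), ⟨fun V hV => ?_, fun x => ?_⟩, ?_, fun V hV => ?_⟩
  · obtain ⟨p, -, rfl⟩ := Finset.mem_image.1 hV
    exact Covx.W_open hG _ p
  · obtain ⟨p, hp, hx⟩ := mem_iUnion₂.1 (ht (mem_univ x))
    exact ⟨_, Finset.mem_image_of_mem _ hp, hx⟩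
  · refine Nat.sub_le_iff_le_add.2 (csSup_le' ?_)
    rintro _ ⟨𝒮, h𝒮, ⟨x, hx⟩, rfl⟩
    have k : ∀ V ∈ 𝒮, ∃ p, Covx.W G (min η (1 / 2)) p = V := fun V hV =>
      (Finset.mem_image.1 (h𝒮 hV)).imp fun p hp => hp.2
    choose! f hf using k
    have hx' : ∀ V ∈ 𝒮, x ∈ Covx.W G (min η (1 / 2)) (f V) := fun V hV => (hf V hV).symm ▸ hx V hV
    rw [← Finset.card_range (D + 1)]
    refine Finset.card_le_card_of_injOn (fun V => (f V).1.card) (fun V hV => ?_)
      fun V hV V' hV' e => ?_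
    · refine Finset.mem_coe.2 (Finset.mem_range.2 (Nat.lt_succ_of_le (le_trans ?_ (hD x))))
      beta_reduce
      rw [← ncard_coe_finset]
      exact ncard_le_ncard (fun i hi => ⟨_, ((hx' V hV).1 i hi).trans_le (min_le_left _ _)⟩)
        (toFinite _)
    · rw [← hf V hV, ← hf V' hV', Covx.W_inj (min_le_right _ _) (hx' V hV) (hx' V' hV') e]
  · obtain ⟨p, -, rfl⟩ := Finset.mem_image.1 hV
    intro x hx x' hx' i
    rw [abs_le]
    by_cases hi : i ∈ p.1
    · have h1 := abs_lt.1 ((hx.1 i hi).trans_le (min_le_right _ _))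
      have h2 := abs_lt.1 ((hx'.1 i hi).trans_le (min_le_right _ _))
      constructor <;> linarith [h1.1, h1.2, h2.1, h2.2]
    · have h1 := hx.2.1 i hi
      have h2 := hx'.2.1 i hi
      constructor <;> linarith [h1.1, h1.2, h2.1, h2.2]

end Vale.Agent.P093
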