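import Vale.Agent.P093.Stm

/-! P093: banded elements are dense. -/

open Filter Topology Set
open scoped ENNReal NNReal ComplexOrder Matrix

namespace Vale.Agent.P093

namespace Denx

variable {X : Type}

theorem dl_self (q : X × ℤ) : dl q q = 1 := by
  classical
  unfold dl
  exact lp.single_apply_self (E := fun _ : X × ℤ => ℂ) _ _ _

theorem dl_ne {p q : X × ℤ} (h : p ≠ q) : dl q p = 0 := by
  classical
  unfold dl
  exact lp.single_apply_ne (E := fun _ : X × ℤ => ℂ) _ _ _ h

theorem dl_x (x : X) (i k : ℤ) : dl (x, i) (x, k) = if k = i then 1 else 0 := by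
  split_ifs with h
  · rw [h, dl_self]
  · exact dl_ne fun e => h (congrArg Prod.snd e)

theorem inn (q : X × ℤ) (ξ : L2 X) : inner ℂ (dl q) ξ = ξ q := by
  classical
  unfold dl
  rw [lp.inner_single_left]
  simp

theorem star_ap (T : L2 X →L[ℂ] L2 X) (p q : X × ℤ) :
    (star T) (dl q) p = (starRingEnd ℂ) (T (dl p) q) := by
  rw [← inn, ← inn, inner_conj_symm, ContinuousLinearMap.star_eq_adjoint,
    ContinuousLinearMap.adjoint_inner_right]

theorem mul_ap (S T : L2 X →L[ℂ] L2 X) {R : ℕ} (q p : X × ℤ)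
    (h : ∀ p : X × ℤ, (p.1 ≠ q.1 ∨ (R : ℤ) < |p.2 - q.2|) → T (dl q) p = 0) :
    (S * T) (dl q) p =
      ∑ k ∈ Finset.Icc (q.2 - R) (q.2 + R), T (dl q) (q.1, k) * S (dl (q.1, k)) p := by
  have e : T (dl q) = ∑ k ∈ Finset.Icc (q.2 - R) (q.2 + R), T (dl q) (q.1, k) • dl (q.1, k) := by
    refine lp.ext (funext fun ⟨x, i⟩ => ?_)
    rw [lp.coeFn_sum, Finset.sum_apply]
    simp only [lp.coeFn_smul, Pi.smul_apply, smul_eq_mul]
    by_cases hx : x = q.1
    · subst hx
      simp only [dl_x, mul_ite, mul_one, mul_zero, Finset.sum_ite_eq]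
      split_ifs with h1
      · rfl
      · refine h _ (Or.inr ?_)
        rw [Finset.mem_Icc] at h1
        rw [lt_abs]
        omega
    · rw [h _ (Or.inl hx)]
      exact (Finset.sum_eq_zero fun k _ => by
        rw [dl_ne fun e => hx (congrArg Prod.fst e), mul_zero]).symm
  rw [ContinuousLinearMap.mul_apply]
  conv_lhs => rw [e]
  rw [map_sum, lp.coeFn_sum, Finset.sum_apply]
  simp only [map_smul, lp.coeFn_smul, Pi.smul_apply, smul_eq_mul]

variable [TopologicalSpace X] {S T : L2 X →L[ℂ] L2 X}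

theorem b_fn {F : X × ℤ → ℂ} (hF : ∀ k, Continuous fun x => F (x, k))
    (hT : ∀ (ξ : L2 X) p, T ξ p = F p * ξ p) : Band T := by
  refine ⟨0, fun p q h => ?_, fun i k => ?_⟩
  · rw [hT, dl_ne, mul_zero]
    rintro rfl
    simp at h
  · simp only [hT, dl_x]
    exact (hF k).mul continuous_const

theorem b_sh (hT : ∀ (ξ : L2 X) (p : X × ℤ), T ξ p = ξ (p.1, p.2 - 1)) : Band T := by
  refine ⟨1, fun p q h => ?_, fun i k => ?_⟩
  · rw [hT, dl_ne]
    rintro rfl
    simp at h
  · simp only [hT, dl_x]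
    exact continuous_const

theorem b_add (hS : Band S) (hT : Band T) : Band (S + T) := by
  obtain ⟨R, a1, a2⟩ := hS
  obtain ⟨R', b1, b2⟩ := hT
  refine ⟨R + R', fun p q h => ?_, fun i k => (a2 i k).add (b2 i k)⟩
  show S (dl q) p + T (dl q) p = 0
  rw [a1 p q (h.imp_right fun h => by omega), b1 p q (h.imp_right fun h => by omega), add_zero]

theorem b_star (hT : Band T) : Band (star T) := by
  obtain ⟨R, a1, a2⟩ := hT
  refine ⟨R, fun p q h => ?_, fun i k => ?_⟩
  · rw [star_ap, a1 q p (h.imp Ne.symm fun h => by rwa [abs_sub_comm]), map_zero]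
  · simp only [star_ap]
    exact Complex.continuous_conj.comp (a2 k i)

theorem b_mul (hS : Band S) (hT : Band T) : Band (S * T) := by
  obtain ⟨R, a1, a2⟩ := hS
  obtain ⟨R', b1, b2⟩ := hT
  refine ⟨R + R', fun p q h => ?_, fun i k => ?_⟩
  · rw [mul_ap S T q p fun p => b1 p q]
    refine Finset.sum_eq_zero fun k hk => ?_
    rw [a1 p (q.1, k) (h.imp_right fun h => ?_), mul_zero]
    rw [Finset.mem_Icc] at hk
    rw [lt_abs] at h ⊢
    omega
  · simp only [fun q p => mul_ap S T q p fun p => b1 p q]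
    exact continuous_finsetSum _ fun l _ => (b2 i l).mul (a2 l k)

theorem b_adj {h : X ≃ₜ X} (hT : T ∈ StarAlgebra.adjoin ℂ (gens h)) : Band T := by
  induction hT using StarAlgebra.adjoin_induction with
  | mem T hT =>
    rcases hT with ⟨f, hf⟩ | hT
    · exact b_fn (F := fun p => f ((h ^ p.2) p.1))
        (fun k => f.continuous.comp (h ^ k).continuous) hf
    · exact b_sh hT
  | algebraMap c => exact b_fn (F := fun _ => c) (fun _ => continuous_const) fun _ _ => rfl
  | add _ _ _ _ h1 h2 => exact b_add h1 h2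
  | mul _ _ _ _ h1 h2 => exact b_mul h1 h2
  | star _ _ h1 => exact b_star h1

end Denx

theorem s_den : S_den := by
  intro X _ h A _ j hj a ε hε
  have h1 : j a ∈ closure (StarAlgebra.adjoin ℂ (gens h) : Set (L2 X →L[ℂ] L2 X)) :=
    hj.2 ▸ mem_range_self a
  obtain ⟨T, hT, hd⟩ := Metric.mem_closure_iff.1 h1 ε hε
  obtain ⟨v, rfl⟩ : T ∈ range j := hj.2 ▸ subset_closure hT
  refine ⟨v, Denx.b_adj hT, ?_⟩
  rwa [← NonUnitalStarAlgHom.norm_map j hj.1, map_sub, ← dist_eq_norm]

end Vale.Agent.P093
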