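import Vale.Agent.P093.Stm

/-! P093: the dimension function of a semigroup of positive matrix functions. -/

open Filter Topology Set
open scoped ENNReal NNReal ComplexOrder Matrix

namespace Vale.Agent.P093

namespace Dtx

theorem gen {B : Type} [CStarAlgebra B] [PartialOrder B] [StarOrderedRing B] (c : ℝ → B)
    (hm : ∀ s t : ℝ, 0 < s → 0 < t → c s * c t = c (s + t))
    (hs : ∀ s : ℝ, 0 < s → star (c s) = c s) :
    0 ≤ c 1 ∧ ∀ m : ℕ, root (m + 1) (c 1) = c ((m + 1 : ℕ) : ℝ)⁻¹ := by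
  have h0 : ∀ s : ℝ, 0 < s → 0 ≤ c s := fun s h => by
    have e := hm (s / 2) (s / 2) (by linarith) (by linarith)
    rw [add_halves] at e
    rw [← e]
    nth_rw 1 [← hs (s / 2) (by linarith)]
    exact star_mul_self_nonneg _
  have hp : ∀ r : ℝ, 0 < r → ∀ k : ℕ, c r ^ (k + 1) = c ((k + 1 : ℕ) * r) := by
    intro r hr k
    induction k with
    | zero => simp
    | succ k ih =>
      rw [pow_succ, ih, hm _ _ (by positivity) hr]
      congr 1
      push_cast; ring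
  refine ⟨h0 1 one_pos, fun m => ?_⟩
  have hr : (0:ℝ) < ((m + 1 : ℕ) : ℝ)⁻¹ := by positivity
  have e := hp _ hr m
  rw [mul_inv_cancel₀ (by positivity)] at e
  have hb := h0 _ hr
  have hsa : IsSelfAdjoint (c ((m + 1 : ℕ) : ℝ)⁻¹) := hs _ hr
  rw [← e, root, ← cfc_pow_id (R := ℝ) _ (m + 1) hsa, ← cfc_comp' (fun t : ℝ => t ^ ((m + 1 : ℕ) : ℝ)⁻¹)
    (fun t : ℝ => t ^ (m + 1)) _ (Real.continuous_rpow_const hr.le).continuousOn]
  refine (cfc_congr fun t ht => ?_).trans (cfc_id ℝ _ hsa)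
  exact Real.pow_rpow_inv_natCast (spectrum_nonneg_of_nonneg hb ht) (Nat.succ_ne_zero m)

variable {X : Type} [TopologicalSpace X] [CompactSpace X] {h : X ≃ₜ X} {A : Type}
  [CStarAlgebra A] [PartialOrder A] [StarOrderedRing A] {j : A →⋆ₐ[ℂ] (L2 X →L[ℂ] L2 X)}

/-- Complexification. -/
def cr (f : C(X, ℝ)) : C(X, ℂ) := ⟨fun x => f x, by fun_prop⟩

/-- Iterates. -/
def it (h : X ≃ₜ X) (i : ℕ) : C(X, X) := ⟨h^[i], h.continuous.iterate i⟩

/-- The invariant state. -/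
noncomputable def om (ρ : Rp h j) (τ : A →ₗ[ℂ] ℂ) (f : C(X, ℝ)) : ℝ := (τ (ρ.π (cr f))).re

variable {ρ : Rp h j} {τ : A →ₗ[ℂ] ℂ}

theorem om_mono (hτ : IsTrace τ) {f g : C(X, ℝ)} (hfg : ∀ x, f x ≤ g x) : om ρ τ f ≤ om ρ τ g := by
  let k : C(X, ℝ) := ⟨fun x => √(g x - f x), by fun_prop⟩
  have e : cr g = cr f + star (cr k) * cr k := by
    ext x
    have := Real.mul_self_sqrt (sub_nonneg.2 (hfg x))
    simp only [cr, k, ContinuousMap.coe_mk, ContinuousMap.add_apply, ContinuousMap.mul_apply,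
      ContinuousMap.star_apply, Complex.star_def, Complex.conj_ofReal, ← Complex.ofReal_mul, this]
    push_cast; ring
  rw [om, om, e, map_add, map_add, Complex.add_re, map_mul, map_star]
  exact le_add_of_nonneg_right (Complex.nonneg_iff.1 (hτ.pos _)).1

theorem om_const (hτ : IsTrace τ) (a : ℝ) : om ρ τ (ContinuousMap.const X a) = a := by
  have e : cr (ContinuousMap.const X a) = (a : ℂ) • 1 := by ext x; simp [cr]
  rw [om, e, map_smul, map_one, map_smul, hτ.one]; simp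

theorem inv_it (hτ : IsTrace τ) (G : C(X, ℂ)) (i : ℕ) : τ (ρ.π (G.comp (it h i))) = τ (ρ.π G) := by
  induction i with
  | zero => rfl
  | succ i ih =>
    have e : G.comp (it h (i + 1)) = (G.comp (it h i)).comp ⟨h, h.continuous⟩ := rfl
    rw [e, ← ρ.cov, hτ.comm, ← mul_assoc, ρ.uu, one_mul, ih]

theorem om_sum (hτ : IsTrace τ) (f : C(X, ℝ)) (N : ℕ) :
    om ρ τ (∑ i ∈ Finset.range N, f.comp (it h i)) = N * om ρ τ f := by
  have e : cr (∑ i ∈ Finset.range N, f.comp (it h i)) =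
      ∑ i ∈ Finset.range N, (cr f).comp (it h i) := by
    ext x; simp [cr]
  rw [om, e, map_sum, map_sum, Finset.sum_congr rfl fun i _ => inv_it hτ (cr f) i]
  simp [om]

theorem om_le (hτ : IsTrace τ) {f : C(X, ℝ)} {N : ℕ} (hN : 0 < N) {γ : ℝ}
    (hf : ∀ x, ∑ i ∈ Finset.range N, f (h^[i] x) ≤ γ * N) : om ρ τ f ≤ γ := by
  have k := om_mono (ρ := ρ) hτ (f := ∑ i ∈ Finset.range N, f.comp (it h i))
    (g := ContinuousMap.const X (γ * N)) fun x => by simpa [it] using hf x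
  rw [om_sum hτ, om_const hτ, mul_comm] at k
  exact le_of_mul_le_mul_right k (by exact_mod_cast hN)

theorem le_om (hτ : IsTrace τ) {f : C(X, ℝ)} {N : ℕ} (hN : 0 < N) {γ : ℝ}
    (hf : ∀ x, γ * N ≤ ∑ i ∈ Finset.range N, f (h^[i] x)) : γ ≤ om ρ τ f := by
  have k := om_mono (ρ := ρ) hτ (g := ∑ i ∈ Finset.range N, f.comp (it h i))
    (f := ContinuousMap.const X (γ * N)) fun x => by simpa [it] using hf x
  rw [om_sum hτ, om_const hτ, mul_comm (N : ℝ)] at k
  exact le_of_mul_le_mul_right k (by exact_mod_cast hN)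

end Dtx

open Dtx in
theorem s_dt : S_dt := by
  intro X _ _ h A _ _ _ j ρ p c F hc
  obtain ⟨h0, hr⟩ := gen (B := CStarMatrix (Fin p) (Fin p) A) (fun s => mat ρ.π (c s))
    (fun s t hs ht => by
      ext i k
      rw [CStarMatrix.mul_apply]
      change ∑ l, ρ.π (c s i l) * ρ.π (c t l k) = ρ.π (c (s + t) i k)
      rw [← hc.mul s t hs ht, map_sum]
      simp only [map_mul])
    (fun s hs => by
      ext i k
      rw [CStarMatrix.star_apply]
      change star (ρ.π (c s k i)) = ρ.π (c s i k)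
      rw [← map_star, hc.sa s hs])
  refine ⟨h0, fun τ hτ γ N hN => ?_⟩
  have hpos : ∀ m : ℕ, (0:ℝ) < ((m + 1 : ℕ) : ℝ)⁻¹ := fun m => by positivity
  have e : ∀ m : ℕ, (∑ i, τ (root (m + 1) (mat ρ.π (c 1)) i i)).re =
      om ρ τ (F ((m + 1 : ℕ) : ℝ)⁻¹) := fun m => by
    have e1 : cr (F ((m + 1 : ℕ) : ℝ)⁻¹) = ∑ i, c ((m + 1 : ℕ) : ℝ)⁻¹ i i := by
      ext x
      rw [ContinuousMap.sum_apply, hc.tr _ (hpos m)]; rfl
    rw [hr m, om, e1, map_sum, map_sum]; rfl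
  have hmono : Monotone fun m : ℕ => om ρ τ (F ((m + 1 : ℕ) : ℝ)⁻¹) := fun a b hab =>
    om_mono hτ (hc.anti _ _ (hpos b) (inv_anti₀ (by positivity) (by exact_mod_cast Nat.succ_le_succ hab)))
  obtain ⟨B, hB⟩ := hc.bd
  have hbd : BddAbove (range fun m : ℕ => om ρ τ (F ((m + 1 : ℕ) : ℝ)⁻¹)) := by
    refine ⟨B, ?_⟩
    rintro _ ⟨m, rfl⟩
    exact (om_mono hτ (g := ContinuousMap.const X B) (hB _ (hpos m))).trans (om_const hτ B).le
  have ht := tendsto_atTop_ciSup hmono hbd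
  have hd : dimFn τ (mat ρ.π (c 1)) = ⨆ m : ℕ, om ρ τ (F ((m + 1 : ℕ) : ℝ)⁻¹) := by
    refine Tendsto.limUnder_eq ((tendsto_add_atTop_iff_nat 1).1 ?_)
    simp only [e]
    exact ht
  rw [hd]
  refine ⟨fun k => ciSup_le fun m => om_le hτ hN (k _ (hpos m)), fun k => ?_⟩
  refine le_ciSup_of_le hbd 0 ?_
  simpa using le_om hτ hN k

end Vale.Agent.P093
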