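import Vale.Agent.P093.Stm

/-! P093: a product of spheres inside a cube. -/

open Filter Topology Set
open scoped ENNReal NNReal ComplexOrder Matrix

namespace Vale.Agent.P093

namespace Embx

/-- euclidean length -/
noncomputable def nr (w : Fin 3 → ℝ) : ℝ := √(w 0 ^ 2 + w 1 ^ 2 + w 2 ^ 2)

theorem nr_cont : Continuous nr := by unfold nr; fun_prop

theorem nr_smul {u : Fin 3 → ℝ} (hu : Un u) {a : ℝ} (ha : 0 ≤ a) : nr (a • u) = a := by
  rw [nr, Real.sqrt_eq_iff_mul_self_eq (by positivity) ha]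
  simp only [Pi.smul_apply, smul_eq_mul]
  unfold Un at hu
  linear_combination a ^ 2 * hu

theorem un_nr {w : Fin 3 → ℝ} (hw : 0 < nr w) : Un ((nr w)⁻¹ • w) := by
  have h : nr w ^ 2 = w 0 ^ 2 + w 1 ^ 2 + w 2 ^ 2 := Real.sq_sqrt (by positivity)
  simp only [Un, Pi.smul_apply, smul_eq_mul]
  field_simp
  exact h.symm

/-- the induction hypothesis -/
def St (n m : ℕ) : Prop := ∃ (H : (Fin n → ℝ) → Fin m → Fin 3 → ℝ) (ρ : (Fin n → ℝ) → ℝ)
  (io : (Fin m → Fin 3 → ℝ) × ℝ → Fin n → ℝ), Continuous H ∧ Continuous ρ ∧ Continuous io ∧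
  ∀ y t, (∀ r, Un (y r)) → |t| ≤ 1 → ρ (io (y, t)) = t ∧ (∀ l, |io (y, t) l| ≤ 1) ∧
    ∀ r, ∃ a : ℝ, 1 / 3 ≤ a ∧ H (io (y, t)) r = a • y r

theorem step {n m : ℕ} (h : St n m) : St (n + 1 + 1) (m + 1) := by
  obtain ⟨H, ρ, io, h1, h2, h3, h4⟩ := h
  refine ⟨fun v => Matrix.vecCons ![ρ fun l => v l.succ.succ, v 0, v 1] (H fun l => v l.succ.succ),
    fun v => 3 * nr ![ρ fun l => v l.succ.succ, v 0, v 1] - 2,
    fun p => Matrix.vecCons ((2 + p.2) / 3 * p.1 0 1) (Matrix.vecCons ((2 + p.2) / 3 * p.1 0 2)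
      (io (fun r => p.1 r.succ, (2 + p.2) / 3 * p.1 0 0))), by fun_prop, ?_, by fun_prop,
    fun y t hy ht => ?_⟩
  · have := nr_cont
    fun_prop
  have a1 : 1 / 3 ≤ (2 + t) / 3 := by linarith [(abs_le.1 ht).1]
  have a2 : (2 + t) / 3 ≤ 1 := by linarith [(abs_le.1 ht).2]
  have b : ∀ i, |(2 + t) / 3 * y 0 i| ≤ 1 := fun i => by
    have h0 := hy 0
    unfold Un at h0
    have : |y 0 i| ≤ 1 := by
      rw [← sq_le_one_iff_abs_le_one]
      fin_cases i <;> simp only [Fin.zero_eta, Fin.mk_one, Fin.reduceFinMk] <;>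
        nlinarith [sq_nonneg (y 0 0), sq_nonneg (y 0 1), sq_nonneg (y 0 2)]
    rw [abs_mul, abs_of_nonneg (by linarith)]
    exact mul_le_one₀ a2 (abs_nonneg _) this
  obtain ⟨k1, k2, k3⟩ := h4 (fun r => y r.succ) _ (fun r => hy _) (b 0)
  have e : ![(2 + t) / 3 * y 0 0, (2 + t) / 3 * y 0 1, (2 + t) / 3 * y 0 2] =
      ((2 + t) / 3) • y 0 := by
    funext i
    fin_cases i <;> rfl
  simp only [Matrix.cons_val_succ, Matrix.cons_val_zero, Matrix.cons_val_one, k1, e]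
  refine ⟨by rw [nr_smul (hy 0) (by linarith)]; ring, Fin.cases (b 1) (Fin.cases (b 2) k2),
    Fin.cases ⟨_, a1, rfl⟩ k3⟩

theorem all (m : ℕ) : St (2 * m + 1) m := by
  induction m with
  | zero => exact ⟨fun _ => 0, fun v => v 0, fun p _ => p.2, continuous_const, by fun_prop,
      by fun_prop, fun y t _ ht => ⟨rfl, fun _ => ht, fun r => r.elim0⟩⟩
  | succ m ih => exact step ih

/-- truncation -/
def cl (t : ℝ) : ℝ := max 0 (min 1 t)

theorem cl_cont : Continuous cl := by unfold cl; fun_prop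

theorem cl_nn (t : ℝ) : 0 ≤ cl t := le_max_left _ _

theorem cl_le (t : ℝ) : cl t ≤ 1 := max_le zero_le_one (min_le_left _ _)

theorem cl_pos {t : ℝ} (h : cl t ≠ 0) : 0 < t := by
  by_contra h0
  exact h (max_eq_left ((min_le_right _ _).trans (not_lt.1 h0)))

theorem cl_one {t : ℝ} (h : 1 ≤ t) : cl t = 1 := by
  rw [cl, min_eq_left h, max_eq_right zero_le_one]

end Embx

open Embx in
theorem s_emb : S_emb := by
  intro m
  obtain ⟨H, ρ, io, h1, -, h3, h4⟩ := all m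
  have c1 := nr_cont
  have c2 := cl_cont
  refine ⟨fun v r => (max (nr (H (fun l => 4 * v l - 2) r)) (1 / 4))⁻¹ • H (fun l => 4 * v l - 2) r,
    fun v => (∏ r, cl (12 * nr (H (fun l => 4 * v l - 2) r) - 3)) * ∏ l, cl (2 - |4 * v l - 2|),
    fun y l => (io (y, 1) l + 2) / 4, continuous_pi fun r => ?_,
    by fun_prop, by fun_prop, fun v => ⟨mul_nonneg (Finset.prod_nonneg fun _ _ => cl_nn _)
      (Finset.prod_nonneg fun _ _ => cl_nn _), mul_le_one₀
      (Finset.prod_le_one (fun _ _ => cl_nn _) fun _ _ => cl_le _)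
      (Finset.prod_nonneg fun _ _ => cl_nn _)
      (Finset.prod_le_one (fun _ _ => cl_nn _) fun _ _ => cl_le _)⟩,
    fun v hv => ⟨fun r => ?_, fun l => ?_⟩, fun y hy => ?_⟩
  · fun_prop (disch := exact fun v => (lt_max_of_lt_right (by norm_num)).ne')
  · have := cl_pos (Finset.prod_ne_zero_iff.1 (left_ne_zero_of_mul hv) r (Finset.mem_univ r))
    beta_reduce
    rw [max_eq_left (by linarith)]
    exact un_nr (by linarith)
  · have := cl_pos (Finset.prod_ne_zero_iff.1 (right_ne_zero_of_mul hv) l (Finset.mem_univ l))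
    have h := abs_lt.1 (sub_pos.1 this)
    exact ⟨by linarith [h.1], by linarith [h.2]⟩
  · obtain ⟨-, k2, k3⟩ := h4 y 1 hy abs_one.le
    have e : ∀ l, 4 * ((io (y, 1) l + 2) / 4) - 2 = io (y, 1) l := fun l => by ring
    simp only [e]
    refine ⟨?_, funext fun r => ?_⟩
    · rw [Finset.prod_eq_one fun r _ => ?_, Finset.prod_eq_one fun l _ => ?_, one_mul]
      · exact cl_one (by linarith [k2 l])
      · obtain ⟨a, ha, k⟩ := k3 r
        rw [k, nr_smul (hy r) (by linarith)]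
        exact cl_one (by linarith)
    · obtain ⟨a, ha, k⟩ := k3 r
      rw [k, nr_smul (hy r) (by linarith), max_eq_left (by linarith), inv_smul_smul₀ (by linarith)]

end Vale.Agent.P093
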