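import Vale.Agent.P093.Stm

/-! P093: free coordinates of a block system. -/

open Filter Topology Set
open scoped ENNReal NNReal ComplexOrder Matrix

namespace Vale.Agent.P093

namespace Frx

theorem geo {M d : ℕ} {s : Finset (Fin M → ℝ)} (hs : s.card = d + 1)
    (hi : AffineIndependent ℝ ((↑) : s → Fin M → ℝ)) :
    ∃ (o : Fin M → ℝ) (v : Fin d → Fin M → ℝ) (l : (Fin M → ℝ) →ₗ[ℝ] (Fin d → ℝ)),
      (∀ c : Fin d → ℝ, l (∑ a, c a • v a) = c) ∧ ∀ c : Fin d → ℝ, (∀ a, 0 ≤ c a) →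
        ∑ a, c a ≤ 1 → o + ∑ a, c a • v a ∈ convexHull ℝ (s : Set (Fin M → ℝ)) := by
  let e := s.equivFinOfCardEq hs
  let p : Fin (d + 1) → Fin M → ℝ := fun i => e.symm i
  have hp : AffineIndependent ℝ p := hi.comp_embedding e.symm.toEmbedding
  have hl : LinearIndependent ℝ fun a : Fin d => p a.succ - p 0 :=
    ((affineIndependent_iff_linearIndependent_vsub ℝ p 0).1 hp).comp
      (fun a : Fin d => ⟨a.succ, Fin.succ_ne_zero a⟩)
      fun a b k => Fin.succ_injective _ (congrArg Subtype.val k)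
  obtain ⟨l, hl'⟩ := LinearMap.exists_leftInverse_of_injective _
    (LinearMap.ker_eq_bot.2 (linearIndependent_iff_injective_fintypeLinearCombination.1 hl))
  refine ⟨p 0, fun a => p a.succ - p 0, l, fun c => LinearMap.congr_fun hl' c, fun c h0 h1 => ?_⟩
  have k := (convex_convexHull ℝ (s : Set (Fin M → ℝ))).sum_mem (t := Finset.univ)
    (w := (Fin.cons (1 - ∑ a, c a) c : Fin (d + 1) → ℝ)) (z := p)
    (fun i _ => Fin.cases (by simpa using h1) (fun a => by simpa using h0 a) i)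
    (by simp [Fin.sum_univ_succ]) fun i _ => subset_convexHull ℝ _ (e.symm i).2
  have e2 : p 0 + ∑ a, c a • (p a.succ - p 0) =
      ∑ i, (Fin.cons (1 - ∑ a, c a) c : Fin (d + 1) → ℝ) i • p i := by
    simp only [Fin.sum_univ_succ, Fin.cons_zero, Fin.cons_succ, smul_sub, Finset.sum_sub_distrib,
      sub_smul, one_smul, Finset.sum_smul]
    abel
  rw [e2]
  exact k

theorem small (b : ℝ) : ∀ᶠ η in 𝓝[>] (0:ℝ), b ∉ Ioo 0 η := by
  rcases le_or_gt b 0 with h | h
  · exact Eventually.of_forall fun η k => not_lt.2 h k.1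
  · filter_upwards [Ioo_mem_nhdsGT h] with η k k'
    exact lt_asymm k.2 k'.2

end Frx

theorem s_fr : S_fr := by
  classical
  rintro X _ _ h M d K e ρ ε ⟨s, hsK, hs⟩ hB hε
  obtain ⟨o, v, l, hl, hc⟩ := Frx.geo hs (K.indep hsK)
  obtain ⟨F, N₀, hF⟩ := hB.upper ε hε
  obtain ⟨η, ⟨hη, hηd⟩, hηF⟩ : ∃ η : ℝ, η ∈ Ioo 0 (1 / ((d:ℝ) + 1)) ∧
      ∀ z ∈ F, ∀ a, l (z - o) a ∉ Ioo 0 η :=
    ((show ∀ᶠ η in 𝓝[>] (0:ℝ), η ∈ Ioo 0 (1 / ((d:ℝ) + 1)) from
      Ioo_mem_nhdsGT (by positivity)).and ((eventually_all_finset F).2 fun z _ =>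
        eventually_all.2 fun a => Frx.small _)).exists
  have hlc : Continuous l := l.continuous_of_finiteDimensional
  refine ⟨Fin d, inferInstance, fun a => ⟨fun x => l (e x - o) a / η, by fun_prop⟩,
    ⟨N₀, fun N hN x => ?_⟩, fun N₁ => ?_⟩
  · have h1 : {j : ℕ | j < N ∧ e (h^[j] x) ∉ F}.Finite :=
      (finite_lt_nat N).subset fun _ k => k.1
    have h2 := ncard_le_ncard (s := {p : ℕ × Fin d | p.1 < N ∧
        l (e (h^[p.1] x) - o) p.2 / η ∈ Ioo (0 : ℝ) 1})
      (t := {j : ℕ | j < N ∧ e (h^[j] x) ∉ F} ×ˢ (univ : Set (Fin d)))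
      (fun p k => ⟨⟨k.1, fun k' => hηF _ k' p.2
        ⟨(div_pos_iff_of_pos_right hη).1 k.2.1, (div_lt_one hη).1 k.2.2⟩⟩, trivial⟩)
      (h1.prod finite_univ)
    rw [ncard_prod, ncard_univ, Nat.card_fin] at h2
    refine (Nat.cast_le.2 h2).trans ?_
    rw [Nat.cast_mul, mul_right_comm]
    exact mul_le_mul_of_nonneg_right (hF N hN x) (Nat.cast_nonneg d)
  obtain ⟨N, hN, J, hJ, hJc, z, hz⟩ := hB.lower ε hε N₁
  let w : (ℕ × Fin d → ℝ) → ℤ → Fin M → ℝ := fun y n =>
    if n ∈ J then o + ∑ a, (η * y (n.toNat, a)) • v a else z n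
  have hw : ∀ y : ℕ × Fin d → ℝ, (∀ p, y p ∈ Icc (0 : ℝ) 1) →
      ∃ x, ∀ n : ℤ, e ((h ^ n) x) = w y n := fun y hy =>
    hz (w y) (fun n hn => by
      simp only [w, if_pos hn]
      refine K.convexHull_subset_space hsK (hc _ (fun a => mul_nonneg hη.le (hy _).1) ?_)
      refine (Finset.sum_le_card_nsmul _ _ η fun a _ => mul_le_of_le_one_right hη.le (hy _).2).trans ?_
      rw [Finset.card_univ, Fintype.card_fin, nsmul_eq_mul]
      rw [lt_div_iff₀ (by positivity)] at hηd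
      linarith) fun n hn => if_neg hn
  have : Nonempty X := (hw 0 fun _ => ⟨le_rfl, zero_le_one⟩).nonempty
  choose! σ hσ using hw
  have hJ' : ∀ n ∈ J, 0 ≤ n ∧ n < N := fun n hn => Finset.mem_Ico.1 (hJ hn)
  refine ⟨N, hN, J.image Int.toNat ×ˢ Finset.univ, fun p hp => ?_, ?_, σ, ?_, fun y hy p hp => ?_⟩
  · obtain ⟨n, hn, k⟩ := Finset.mem_image.1 (Finset.mem_product.1 hp).1
    have := hJ' n hn
    omega
  · rw [Finset.card_product, Finset.card_image_of_injOn fun a ha b hb k => by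
      have := hJ' a ha
      have := hJ' b hb
      omega, Finset.card_univ, Fintype.card_fin, Nat.cast_mul, mul_right_comm]
    exact mul_le_mul_of_nonneg_right hJc (Nat.cast_nonneg d)
  · have hI : Continuous fun (x : X) (n : ℤ) => e ((h ^ n) x) :=
      continuous_pi fun n => e.continuous.comp (h ^ n).continuous
    refine (hI.isClosedEmbedding fun x x' k => hB.inj x x' (congrFun k)).isInducing.continuousOn_iff.2
      (ContinuousOn.congr (f := w) (Continuous.continuousOn (continuous_pi fun n => ?_))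
        fun y hy => funext (hσ y hy))
    by_cases hn : n ∈ J
    · simp only [w, if_pos hn]; fun_prop
    · simp only [w, if_neg hn]; exact continuous_const
  · obtain ⟨n, hn, k⟩ := Finset.mem_image.1 (Finset.mem_product.1 hp).1
    have e1 : n = (p.1 : ℤ) := by have := hJ' n hn; omega
    have e2 := hσ y hy n
    simp only [w, if_pos hn] at e2
    rw [k, e1, zp_nat] at e2
    change l (e (h^[p.1] (σ y)) - o) p.2 / η = y p
    rw [e2, add_sub_cancel_left, hl, mul_div_cancel_left₀ _ hη.ne']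

end Vale.Agent.P093
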