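import Vale.Agent.P093.Stm

/-! P093: a generic translate of the integer grid. -/

open Filter Topology Set
open scoped ENNReal NNReal ComplexOrder Matrix

namespace Vale.Agent.P093

namespace Gridx

open MeasureTheory

variable {M d : ℕ}

theorem null (lam : (Fin M → ℝ) →ₗ[ℝ] ℝ) (h : lam ≠ 0) (b : ℝ) :
    ∀ᵐ θ : Fin M → ℝ, lam θ ≠ b := by
  rw [ae_iff]
  simp only [not_not]
  rcases eq_empty_or_nonempty {θ : Fin M → ℝ | lam θ = b} with e | ⟨θ0, h0⟩
  · rw [e, measure_empty]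
  · have e : {θ : Fin M → ℝ | lam θ = b} = (fun θ => θ + -θ0) ⁻¹' (LinearMap.ker lam) := by
      ext θ
      have h1 : lam θ0 = b := h0
      simp only [mem_ofPred_eq, mem_preimage, SetLike.mem_coe, LinearMap.mem_ker, map_add, map_neg,
        h1, add_neg_eq_zero]
    rw [e, measure_preimage_add_right]
    exact Measure.addHaar_submodule _ _ fun e => h (LinearMap.ker_eq_top.1 e)

theorem func (s : Finset (Fin M → ℝ)) (T : Finset (Fin M)) (hs : s.card ≤ d + 1)
    (hT : T.card = d + 1) : ∃ lam : (Fin M → ℝ) →ₗ[ℝ] ℝ, lam ≠ 0 ∧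
      (∀ u v, (∀ a ∈ T, u a = v a) → lam u = lam v) ∧
      ∃ b, ∀ z ∈ convexHull ℝ (s : Set (Fin M → ℝ)), lam z = b := by
  classical
  obtain ⟨z0, h0⟩ : ∃ z0, (s.erase z0).card ≤ d := by
    rcases s.eq_empty_or_nonempty with rfl | ⟨z0, h0⟩
    · exact ⟨0, by simp⟩
    · exact ⟨z0, by rw [Finset.card_erase_of_mem h0]; omega⟩
  let R : (Fin M → ℝ) →ₗ[ℝ] (T → ℝ) := LinearMap.funLeft ℝ ℝ Subtype.val
  have hR : Function.Surjective R :=
    LinearMap.funLeft_surjective_of_injective ℝ ℝ _ Subtype.val_injective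
  obtain ⟨f, hf, hk⟩ := Submodule.exists_le_ker_of_lt_top
    (Submodule.span ℝ (((s.erase z0).image fun p => R (p - z0) : Finset (T → ℝ)) : Set (T → ℝ)))
    (Submodule.lt_top_of_finrank_lt_finrank (by
      rw [Module.finrank_fintype_fun_eq_card, Fintype.card_coe, hT]
      exact Nat.lt_succ_of_le
        ((finrank_span_finset_le_card _).trans (Finset.card_image_le.trans h0))))
  refine ⟨f ∘ₗ R, fun e => hf (LinearMap.ext fun y => ?_), fun u v h => ?_, f (R z0), ?_⟩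
  · obtain ⟨x, rfl⟩ := hR y
    exact LinearMap.congr_fun e x
  · exact congrArg f (funext fun a => h a.1 a.2)
  · refine convexHull_min (fun p hp => ?_) (convex_hyperplane (f ∘ₗ R).isLinear (f (R z0)))
    by_cases e : p = z0
    · rw [e]; rfl
    · have := hk (Submodule.subset_span (Finset.mem_coe.2
        (Finset.mem_image_of_mem (fun p => R (p - z0)) (Finset.mem_erase.2 ⟨e, hp⟩))))
      rwa [LinearMap.mem_ker, map_sub, map_sub, sub_eq_zero] at this

theorem gen (s : Finset (Fin M → ℝ)) (T : Finset (Fin M)) (hs : s.card ≤ d + 1)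
    (hT : T.card = d + 1) (c : ℝ) : ∀ᵐ θ : Fin M → ℝ,
      ∀ z ∈ convexHull ℝ (s : Set (Fin M → ℝ)), ∃ a ∈ T, ∀ k : ℤ, c * z a - θ a ≠ k := by
  obtain ⟨lam, h1, h2, b, h3⟩ := func s T hs hT
  filter_upwards [ae_all_iff.2 fun k : Fin M → ℤ => null lam h1 (c * b - lam fun a => k a)]
    with θ hθ z hz
  by_contra hc
  push Not at hc
  choose! k hk using hc
  refine hθ k ?_
  rw [← h3 z hz, ← smul_eq_mul, ← map_smul, ← map_sub]
  exact h2 _ _ fun a ha => by
    simp only [Pi.sub_apply, Pi.smul_apply, smul_eq_mul, ← hk a ha, sub_sub_cancel]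

theorem gap {K : Set (Fin M → ℝ)} (hK : IsCompact K) (T : Finset (Fin M)) (c : ℝ) (θ : Fin M → ℝ)
    (h : ∀ z ∈ K, ∃ a ∈ T, ∀ k : ℤ, c * z a - θ a ≠ k) :
    ∀ᶠ η : ℝ in 𝓝 0, ∀ z ∈ K, ∃ a ∈ T, ∀ k : ℤ, η ≤ |c * z a - θ a - k| := by
  refine hK.eventually_forall_of_forall_eventually
    (P := fun η z => ∃ a ∈ T, ∀ k : ℤ, η ≤ |c * z a - θ a - k|) fun z hz => ?_
  obtain ⟨a, ha, hk⟩ := h z hz
  have hp : 0 < Metric.infDist (c * z a - θ a) (range ((↑) : ℤ → ℝ)) :=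
    (Int.isClosedEmbedding_coe_real.isClosed_range.notMem_iff_infDist_pos (range_nonempty _)).1
      fun ⟨k, e⟩ => hk k e.symm
  have hc : Continuous fun p : ℝ × (Fin M → ℝ) =>
      Metric.infDist (c * p.2 a - θ a) (range ((↑) : ℤ → ℝ)) :=
    (Metric.continuous_infDist_pt _).comp (by fun_prop)
  filter_upwards [continuousAt_fst.eventually_lt (hc.continuousAt (x := (0, z))) hp] with p hp
  exact ⟨a, ha, fun k => hp.le.trans (Metric.infDist_le_dist_of_mem (mem_range_self k))⟩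

end Gridx

open Gridx MeasureTheory in
theorem s_grid : S_grid := by
  intro M d 𝒮 F c hfin hS
  have h1 : ∀ᵐ θ : Fin M → ℝ, ∀ s ∈ 𝒮, ∀ T : Finset (Fin M), T.card = d + 1 →
      ∀ z ∈ convexHull ℝ (s : Set (Fin M → ℝ)), ∃ a ∈ T, ∀ k : ℤ, c * z a - θ a ≠ k :=
    (ae_ball_iff hfin.countable).2 fun s hs => ae_all_iff.2 fun T => ae_all_iff.2 fun hT =>
      gen s T (hS s hs) hT c
  have h2 : ∀ᵐ θ : Fin M → ℝ, ∀ z ∈ F, ∀ a : Fin M, ∀ z' ∈ convexHull ℝ
      (({z} : Finset (Fin M → ℝ)) : Set (Fin M → ℝ)), ∃ a' ∈ ({a} : Finset (Fin M)), ∀ k : ℤ,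
        c * z' a' - θ a' ≠ k :=
    (ae_ball_iff F.countable_toSet).2 fun z _ => ae_all_iff.2 fun a =>
      gen (d := 0) {z} {a} (by simp) (by simp) c
  obtain ⟨θ, g1, g2⟩ := (h1.and h2).exists
  have e1 := (eventually_all_finite hfin).2 fun s hs => eventually_all.2 fun T =>
    eventually_all.2 fun hT => gap (s.finite_toSet.isCompact_convexHull ℝ) T c θ (g1 s hs T hT)
  have e2 := (eventually_all_finset F).2 fun z hz => eventually_all.2 fun a =>
    gap ((Finset.finite_toSet {z}).isCompact_convexHull ℝ) {a} c θ (g2 z hz a)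
  obtain ⟨η, ⟨k1, k2⟩, h0⟩ :=
    (((e1.and e2).filter_mono (nhdsWithin_le_nhds (s := Ioi 0))).and self_mem_nhdsWithin).exists
  refine ⟨θ, η, h0, fun s hs z hz => ?_, fun z hz a => ?_⟩
  · by_contra hc
    obtain ⟨t, t1, t2⟩ := Set.exists_subset_card_eq (Nat.succ_le_of_lt (not_le.1 hc))
    obtain ⟨a, ha, hk⟩ := k1 s hs t.toFinite.toFinset
      (by rw [← Set.ncard_eq_toFinset_card]; exact t2) z hz
    obtain ⟨k, hk'⟩ := t1 (t.toFinite.mem_toFinset.1 ha)
    exact (hk k).not_gt hk'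
  · obtain ⟨a', ha, hk⟩ := k2 z hz a z (subset_convexHull ℝ _ (by simp))
    rwa [Finset.mem_singleton.1 ha] at hk

end Vale.Agent.P093
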