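import Vale.Agent.P093.Stm

/-! P093: grouping coordinates into patterns. -/

namespace Vale.Agent.P093

theorem s_grp : S_grp := by
  intro κ c L N J hL hJ
  classical
  let Jb : Fin (N / L + 1) → Finset (ℕ × κ) := fun b => J.filter fun p => p.1 / L = b
  let nb : Fin (N / L + 1) → ℕ := fun b => (Jb b).card / (c + 1)
  have hE : ∀ b, Nonempty (Fin (nb b) × Fin (c + 1) ↪ Jb b) := fun b =>
    Function.Embedding.nonempty_of_card_le (by simpa using Nat.div_mul_le_self _ _)
  let E := fun b => (hE b).some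
  let σ := (Fintype.equivFin (Σ b, Fin (nb b))).symm
  have key : ∀ b z, ((b.1 * L + (E b z).1.1 % L, (E b z).1.2) : ℕ × κ) = (E b z).1 := fun b z => by
    have := (Finset.mem_filter.1 (E b z).2).2
    rw [← this, Nat.div_add_mod']
  refine ⟨_, fun r => (σ r).1 * L, fun r l =>
    (⟨(E _ ((σ r).2, l)).1.1 % L, Nat.mod_lt _ hL⟩, (E _ ((σ r).2, l)).1.2), ?_, fun r l => ?_, ?_⟩
  · rintro ⟨r, l⟩ ⟨r', l'⟩ h
    simp only [key] at h
    obtain ⟨⟨b, g⟩, rfl⟩ := σ.symm.surjective r
    obtain ⟨⟨b', g'⟩, rfl⟩ := σ.symm.surjective r'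
    rw [σ.apply_symm_apply, σ.apply_symm_apply] at h
    have e : b = b' := Fin.ext ((Finset.mem_filter.1 (E b (g, l)).2).2.symm.trans
      (h ▸ (Finset.mem_filter.1 (E b' (g', l')).2).2))
    subst e
    obtain ⟨rfl, rfl⟩ := Prod.mk.inj ((E b).injective (Subtype.ext h))
    rfl
  · rw [key]
    exact (Finset.mem_filter.1 (E _ _).2).1
  · rw [Finset.card_eq_sum_card_fiberwise (t := Finset.univ)
      (f := fun p : ℕ × κ => (Fin.ofNat (N / L + 1) (p.1 / L))) (by simp), Fintype.card_sigma,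
      Finset.mul_sum]
    have h : ∀ b : Fin (N / L + 1), (J.filter fun p => Fin.ofNat (N / L + 1) (p.1 / L) = b).card ≤
        (c + 1) * Fintype.card (Fin (nb b)) + c := fun b => by
      have e : (J.filter fun p => Fin.ofNat (N / L + 1) (p.1 / L) = b) = Jb b :=
        Finset.filter_congr fun p hp => by
          rw [Fin.ext_iff, Fin.val_ofNat, Nat.mod_eq_of_lt
            (Nat.lt_succ_of_le (Nat.div_le_div_right (hJ p hp).le))]
      rw [e, Fintype.card_fin]
      exact (Nat.div_add_mod (Jb b).card (c + 1)).ge.trans (Nat.add_le_add_left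
        (Nat.le_of_lt_succ (Nat.mod_lt (Jb b).card (Nat.succ_pos c))) _)
    refine (Finset.sum_le_sum fun b _ => h b).trans_eq ?_
    simp [Finset.sum_add_distrib, mul_comm]

end Vale.Agent.P093
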