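import Vale.Agent.P093.Stm

/-! P093: a function with uniform density of visits, from a level function. -/

open Filter Topology Set
open scoped ENNReal NNReal ComplexOrder Matrix

namespace Vale.Agent.P093

namespace Levx

theorem slide (a : ℕ → ℝ) (h0 : ∀ i, 0 ≤ a i) (h1 : ∀ i, a i ≤ 1) (N j : ℕ) :
    ∑ i ∈ Finset.range N, a (i + j) ≤ ∑ i ∈ Finset.range N, a i + j ∧
    ∑ i ∈ Finset.range N, a i ≤ ∑ i ∈ Finset.range N, a (i + j) + j := by
  have e1 := Finset.sum_range_add a N j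
  have e2 := Finset.sum_range_add a j N
  rw [add_comm j N, e1] at e2
  have e3 : ∑ i ∈ Finset.range N, a (j + i) = ∑ i ∈ Finset.range N, a (i + j) :=
    Finset.sum_congr rfl fun i _ => by rw [add_comm]
  have b : ∀ f : ℕ → ℕ, 0 ≤ ∑ i ∈ Finset.range j, a (f i) ∧
      ∑ i ∈ Finset.range j, a (f i) ≤ j := fun f =>
    ⟨Finset.sum_nonneg fun i _ => h0 _, by
      have := Finset.sum_le_sum (s := Finset.range j) fun i _ => h1 (f i)
      simpa using this⟩
  have b1 := b fun i => N + i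
  have b2 := b fun i => i
  constructor <;> linarith [b1.1, b1.2, b2.1, b2.2]

theorem slide2 (a : ℕ → ℝ) (h0 : ∀ i, 0 ≤ a i) (h1 : ∀ i, a i ≤ 1) (N L : ℕ) :
    ∑ i ∈ Finset.range N, ∑ j ∈ Finset.range L, a (i + j) ≤
      L * ∑ i ∈ Finset.range N, a i + L * L ∧
    L * ∑ i ∈ Finset.range N, a i ≤
      ∑ i ∈ Finset.range N, ∑ j ∈ Finset.range L, a (i + j) + L * L := by
  rw [Finset.sum_comm]
  have hj : ∀ j ∈ Finset.range L, (j : ℝ) ≤ L := fun j hj => by
    exact_mod_cast (Finset.mem_range.1 hj).le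
  constructor
  · have := Finset.sum_le_sum (s := Finset.range L)
      (f := fun j => ∑ i ∈ Finset.range N, a (i + j))
      (g := fun _ => ∑ i ∈ Finset.range N, a i + L)
      fun j h => by linarith [(slide a h0 h1 N j).1, hj j h]
    simp only [Finset.sum_const, Finset.card_range, nsmul_eq_mul] at this
    linarith
  · have := Finset.sum_le_sum (s := Finset.range L)
      (g := fun j => ∑ i ∈ Finset.range N, a (i + j))
      (f := fun _ => ∑ i ∈ Finset.range N, a i - L)
      fun j h => by linarith [(slide a h0 h1 N j).2, hj j h]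
    simp only [Finset.sum_const, Finset.card_range, nsmul_eq_mul] at this
    linarith

open Classical in
theorem visits {X : Type} (h : X → X) (U : Set X) (M : ℕ) (hM : 0 < M)
    (hU : ∀ x ∈ U, ∀ j, 0 < j → j < M → h^[j] x ∉ U) (x : X) (N : ℕ) :
    ∑ i ∈ Finset.range N, (if h^[i] x ∈ U then (1 : ℝ) else 0) ≤ (N : ℝ) / M + 1 := by
  rw [Finset.sum_boole]
  have key : ∀ i j : ℕ, h^[i] x ∈ U → h^[j] x ∈ U → i / M = j / M → ¬ i < j := by
    intro i j hi hj e hlt
    have a1 := Nat.div_add_mod i M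
    have a2 := Nat.div_add_mod j M
    have a3 := Nat.mod_lt j hM
    rw [e] at a1
    refine hU _ hi (j - i) (by omega) (by omega) ?_
    rw [← Function.iterate_add_apply, Nat.sub_add_cancel hlt.le]
    exact hj
  have hc : ((Finset.range N).filter fun i => h^[i] x ∈ U).card ≤
      (Finset.range (N / M + 1)).card := by
    refine Finset.card_le_card_of_injOn (fun i => i / M) ?_ ?_
    · intro i hi
      have := (Finset.mem_filter.1 (Finset.mem_coe.1 hi)).1
      have := Nat.div_le_div_right (c := M) (Finset.mem_range.1 this).le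
      exact Finset.mem_coe.2 (Finset.mem_range.2 (by simpa using Nat.lt_succ_of_le this))
    · intro i hi j hj e
      have hi' := (Finset.mem_filter.1 (Finset.mem_coe.1 hi)).2
      have hj' := (Finset.mem_filter.1 (Finset.mem_coe.1 hj)).2
      have := key i j hi' hj' e
      have := key j i hj' hi' e.symm
      omega
  rw [Finset.card_range] at hc
  have h2 : ((N / M : ℕ) : ℝ) ≤ (N : ℝ) / M := Nat.cast_div_le
  have h3 : ((((Finset.range N).filter fun i => h^[i] x ∈ U).card : ℕ) : ℝ) ≤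
      ((N / M : ℕ) : ℝ) + 1 := by exact_mod_cast hc
  linarith

open Classical in
theorem upper {X : Type} (h : X → X) (n : X → ℝ) (U : Set X) (M L : ℕ) (hM : 0 < M)
    (hn : ∀ x, h x ∉ U → n (h x) = n x + 1)
    (hU : ∀ x ∈ U, ∀ j, 0 < j → j < M → h^[j] x ∉ U) (F : ℝ → ℝ) (h0 : ∀ t, 0 ≤ F t)
    (h1 : ∀ t, F t ≤ 1) (β : ℝ) (hβ : 0 ≤ β) (hF : ∀ t, ∑ j ∈ Finset.range L, F (t + j) ≤ β)
    (x : X) (N : ℕ) :
    L * ∑ i ∈ Finset.range N, F (n (h^[i] x)) ≤
      N * β + L * (L * ((N : ℝ) / M + 1) + L * L) + L * L := by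
  set u : ℕ → ℝ := fun i => if h^[i] x ∈ U then (1 : ℝ) else 0 with hu
  have u0 : ∀ i, 0 ≤ u i := fun i => by simp only [hu]; split_ifs <;> norm_num
  have u1 : ∀ i, u i ≤ 1 := fun i => by simp only [hu]; split_ifs <;> norm_num
  have hL : (0 : ℝ) ≤ L := Nat.cast_nonneg _
  have s1 := (slide2 (fun i => F (n (h^[i] x))) (fun i => h0 _) (fun i => h1 _) N L).2
  have s2 := (slide2 u u0 u1 N L).1
  have s3 : ∑ i ∈ Finset.range N, u i ≤ (N : ℝ) / M + 1 := visits h U M hM hU x N
  have w : ∀ i ∈ Finset.range N, ∑ j ∈ Finset.range L, F (n (h^[i + j] x)) ≤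
      β + L * ∑ j ∈ Finset.range L, u (i + j) := by
    intro i _
    have hb : 0 ≤ ∑ j ∈ Finset.range L, u (i + j) := Finset.sum_nonneg fun j _ => u0 _
    by_cases hv : ∃ j ∈ Finset.range L, h^[i + j] x ∈ U
    · obtain ⟨j, hj, hjU⟩ := hv
      have a1 : u (i + j) ≤ ∑ j ∈ Finset.range L, u (i + j) :=
        Finset.single_le_sum (f := fun j => u (i + j)) (fun j _ => u0 _) hj
      have a2 : u (i + j) = 1 := by simp only [hu]; rw [if_pos hjU]
      have a3 := Finset.sum_le_sum (s := Finset.range L) fun j _ => h1 (n (h^[i + j] x))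
      simp only [Finset.sum_const, Finset.card_range, nsmul_eq_mul, mul_one] at a3
      nlinarith
    · have e : ∀ j, j < L → n (h^[i + j] x) = n (h^[i] x) + j := by
        intro j
        induction j with
        | zero => intro _; simp
        | succ j ih =>
          intro hj
          have a : h (h^[i + j] x) ∉ U := fun hh => hv ⟨j + 1, Finset.mem_range.2 hj, by
            rw [← add_assoc, Function.iterate_succ_apply']; exact hh⟩
          rw [← add_assoc, Function.iterate_succ_apply', hn _ a, ih (by omega)]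
          push_cast; ring
      have e2 : ∑ j ∈ Finset.range L, F (n (h^[i + j] x)) =
          ∑ j ∈ Finset.range L, F (n (h^[i] x) + j) :=
        Finset.sum_congr rfl fun j hj => by rw [e j (Finset.mem_range.1 hj)]
      rw [e2]
      have := hF (n (h^[i] x))
      nlinarith
  have s4 := Finset.sum_le_sum w
  rw [Finset.sum_add_distrib, ← Finset.mul_sum] at s4
  simp only [Finset.sum_const, Finset.card_range, nsmul_eq_mul] at s4
  have s5 := mul_le_mul_of_nonneg_left s3 hL
  have s6 : ∑ i ∈ Finset.range N, ∑ j ∈ Finset.range L, u (i + j) ≤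
      L * ((N : ℝ) / M + 1) + L * L := by linarith
  have s7 := mul_le_mul_of_nonneg_left s6 hL
  linarith

theorem shift (L : ℕ) (F : ℝ → ℝ) (hF : ∀ t, F (t + L) = F t) (t : ℝ) :
    ∃ s : ℝ, -(L : ℝ) / 2 ≤ s ∧ s < -(L : ℝ) / 2 + 1 ∧
      ∑ j ∈ Finset.range L, F (t + j) = ∑ j ∈ Finset.range L, F (s + j) := by
  have hp : Function.Periodic (fun t : ℝ => ∑ j ∈ Finset.range L, F (t + j)) 1 := by
    intro t
    have e1 := Finset.sum_range_succ (fun j : ℕ => F (t + j)) L
    have e2 := Finset.sum_range_succ' (fun j : ℕ => F (t + j)) L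
    have e3 : ∑ j ∈ Finset.range L, F (t + ((j + 1 : ℕ) : ℝ)) =
        ∑ j ∈ Finset.range L, F (t + 1 + j) :=
      Finset.sum_congr rfl fun j _ => by
        have : t + ((j + 1 : ℕ) : ℝ) = t + 1 + j := by push_cast; ring
        rw [this]
    rw [e3, e1, hF] at e2
    simp only [Nat.cast_zero, add_zero] at e2
    show ∑ j ∈ Finset.range L, F (t + 1 + j) = ∑ j ∈ Finset.range L, F (t + j)
    linarith
  refine ⟨t - (⌊t + L / 2⌋ : ℤ) * 1, ?_, ?_, (hp.sub_int_mul_eq _).symm⟩
  · linarith [Int.floor_le (t + L / 2)]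
  · linarith [Int.lt_floor_add_one (t + L / 2)]

/-- The periodic bump. -/
noncomputable def psi (L c : ℕ) (t : ℝ) : ℝ :=
  max 0 (min 1 ((c : ℝ) / 2 - ‖(t : AddCircle (L : ℝ))‖))

theorem psi_cont (L c : ℕ) : Continuous (psi L c) :=
  continuous_const.max (continuous_const.min
    (continuous_const.sub (AddCircle.continuous_mk' (L : ℝ)).norm))

theorem psi_per (L c : ℕ) (t : ℝ) : psi L c (t + L) = psi L c t := by
  unfold psi
  rw [AddCircle.coe_add_period]

theorem psi_nonneg (L c : ℕ) (t : ℝ) : 0 ≤ psi L c t := le_max_left _ _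

theorem psi_le (L c : ℕ) (t : ℝ) : psi L c t ≤ 1 := max_le zero_le_one (min_le_left _ _)

theorem psi_eq (L c : ℕ) (hL : 0 < L) (s : ℝ) (h1 : -(L : ℝ) / 2 ≤ s)
    (h2 : s < -(L : ℝ) / 2 + 1) (j : ℕ) (hj : j < L) :
    psi L c (s + j) = max 0 (min 1 ((c : ℝ) / 2 - |s + j|)) := by
  have hL' : (0 : ℝ) < L := by exact_mod_cast hL
  have hj' : (j : ℝ) + 1 ≤ L := by exact_mod_cast hj
  have hj0 : (0 : ℝ) ≤ j := Nat.cast_nonneg _
  unfold psi
  rw [(AddCircle.norm_coe_eq_abs_iff (L : ℝ) hL'.ne').2]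
  rw [abs_of_pos hL', abs_le]
  constructor <;> linarith

open Classical in
theorem psi_up (L c : ℕ) (hL : 0 < L) (t : ℝ) :
    ∑ j ∈ Finset.range L, (if psi L c (t + j) ≠ 0 then (1 : ℝ) else 0) ≤ c + 1 := by
  obtain ⟨s, h1, h2, e⟩ := shift L (fun t => if psi L c t ≠ 0 then (1 : ℝ) else 0)
    (fun t => by simp only [psi_per]) t
  rw [e, Finset.sum_boole]
  have hc : ((Finset.range L).filter fun j : ℕ => psi L c (s + j) ≠ 0).card ≤
      (Finset.Ico ⌊-(c : ℝ) / 2 - s⌋₊ (⌊-(c : ℝ) / 2 - s⌋₊ + (c + 1))).card := by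
    refine Finset.card_le_card fun j hj => ?_
    obtain ⟨hj1, hj2⟩ := Finset.mem_filter.1 hj
    rw [psi_eq L c hL s h1 h2 j (Finset.mem_range.1 hj1)] at hj2
    have hlt : |s + j| < (c : ℝ) / 2 := by
      by_contra hn
      exact hj2 (max_eq_left ((min_le_right _ _).trans (by linarith)))
    rw [abs_lt] at hlt
    refine Finset.mem_Ico.2 ⟨Nat.floor_le_of_le (by linarith [hlt.1]), ?_⟩
    have := Nat.lt_floor_add_one (-(c : ℝ) / 2 - s)
    have h3 : (j : ℝ) < ((⌊-(c : ℝ) / 2 - s⌋₊ + (c + 1) : ℕ) : ℝ) := by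
      push_cast; linarith [hlt.2]
    exact_mod_cast h3
  rw [Nat.card_Ico, Nat.add_sub_cancel_left] at hc
  exact_mod_cast hc

theorem psi_lo (L c : ℕ) (hL : 0 < L) (hc : c ≤ L) (t : ℝ) :
    (c : ℝ) - 2 ≤ ∑ j ∈ Finset.range L, psi L c (t + j) := by
  obtain ⟨s, h1, h2, e⟩ := shift L (psi L c) (psi_per L c) t
  rw [e]
  rcases lt_or_ge c 2 with h | h
  · have : (c : ℝ) < 2 := by exact_mod_cast h
    linarith [Finset.sum_nonneg (s := Finset.range L) fun j _ => psi_nonneg L c (s + (j : ℕ))]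
  obtain ⟨d, rfl⟩ := Nat.exists_eq_add_of_le' h
  have hc' : (d : ℝ) + 2 ≤ L := by exact_mod_cast hc
  have hp : (0 : ℝ) ≤ -(d : ℝ) / 2 - s := by linarith
  have key : ∀ j ∈ Finset.Ico ⌈-(d : ℝ) / 2 - s⌉₊ (⌈-(d : ℝ) / 2 - s⌉₊ + d),
      j < L ∧ |s + j| ≤ (d : ℝ) / 2 := by
    intro j hj
    obtain ⟨a1, a2⟩ := Finset.mem_Ico.1 hj
    have a3 := Nat.ceil_le.1 a1
    have a4 := Nat.ceil_lt_add_one hp
    have a5 : (j : ℝ) + 1 ≤ (⌈-(d : ℝ) / 2 - s⌉₊ : ℝ) + d := by exact_mod_cast a2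
    refine ⟨?_, abs_le.2 ⟨by linarith, by linarith⟩⟩
    have : (j : ℝ) < L := by linarith
    exact_mod_cast this
  have a := Finset.sum_le_sum_of_subset_of_nonneg (f := fun j : ℕ => psi L (d + 2) (s + j))
    (fun j hj => Finset.mem_range.2 (key j hj).1) fun j _ _ => psi_nonneg _ _ _
  have b := Finset.sum_le_sum
    (s := Finset.Ico ⌈-(d : ℝ) / 2 - s⌉₊ (⌈-(d : ℝ) / 2 - s⌉₊ + d)) (f := fun _ => (1 : ℝ))
    (g := fun j : ℕ => psi L (d + 2) (s + j)) fun j hj => by
      rw [psi_eq L _ hL s h1 h2 j (key j hj).1]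
      refine le_max_of_le_right (le_min le_rfl ?_)
      push_cast
      linarith [(key j hj).2]
  simp only [Finset.sum_const, Nat.card_Ico, Nat.add_sub_cancel_left, nsmul_eq_mul, mul_one] at b
  push_cast
  linarith

end Levx

open Levx in
theorem s_lev (hl : S_lvl) : S_lev := by
  intro X _ _ _ _ h R ε hmin hR0 hR1 hε
  classical
  obtain ⟨L, hL⟩ := exists_nat_ge (8 / ε + 1)
  have h8 : 0 < 8 / ε := by positivity
  have hL0 : (0 : ℝ) < L := by linarith
  have hLp : 0 < L := by exact_mod_cast hL0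
  have hLe : 8 ≤ ε * L := by
    have : 8 / ε ≤ L := by linarith
    rw [div_le_iff₀ hε] at this
    linarith
  obtain ⟨M, hM⟩ := exists_nat_ge (8 * L / ε + 1)
  have h9 : 0 < 8 * L / ε := by positivity
  have hM0 : (0 : ℝ) < M := by linarith
  have hMp : 0 < M := by exact_mod_cast hM0
  have hMe : (L : ℝ) / M ≤ ε / 8 := by
    have : 8 * L / ε ≤ M := by linarith
    rw [div_le_iff₀ hε] at this
    rw [div_le_iff₀ hM0]
    linarith
  obtain ⟨K, hK⟩ := exists_nat_ge (2 * (2 * L + L * L) / ε + 1)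
  have h10 : 0 < 2 * (2 * L + L * L) / ε := by positivity
  obtain ⟨n, U, hn, hU⟩ := hl X h M hmin
  set c : ℕ := ⌊R * L⌋₊ with hc
  have c1 : (c : ℝ) ≤ R * L := Nat.floor_le (by positivity)
  have c2 : R * L < c + 1 := Nat.lt_floor_add_one _
  have c3 : (c : ℝ) ≤ L := by nlinarith
  have err : ∀ N : ℕ, K ≤ N → (L : ℝ) * (L * ((N : ℝ) / M + 1) + L * L) + L * L ≤
      L * (5 / 8 * ε * N) := by
    intro N hN
    have hN' : (K : ℝ) ≤ N := by exact_mod_cast hN
    have a1 : 2 * (2 * L + L * L) / ε ≤ N := by linarith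
    rw [div_le_iff₀ hε] at a1
    have a2 : (L : ℝ) * ((N : ℝ) / M) ≤ ε / 8 * N := by
      have : (L : ℝ) * ((N : ℝ) / M) = L / M * N := by ring
      rw [this]
      exact mul_le_mul_of_nonneg_right hMe (Nat.cast_nonneg _)
    have a3 : (L : ℝ) * ((N : ℝ) / M + 1) + L * L + L ≤ 5 / 8 * ε * N := by linarith
    have a4 := mul_le_mul_of_nonneg_left a3 hL0.le
    linarith
  refine ⟨⟨fun x => psi L c (n x), (psi_cont L c).comp n.continuous⟩,
    fun x => ⟨psi_nonneg _ _ _, psi_le _ _ _⟩, ⟨K, ?_, fun x => ?_⟩, K, fun N hN x => ?_⟩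
  · have : (0 : ℝ) < K := by linarith
    exact_mod_cast this
  · have a := upper h n U M L hMp hn hU (fun t => 1 - psi L c t)
      (fun t => by linarith [psi_le L c t]) (fun t => by linarith [psi_nonneg L c t])
      (L - (c - 2)) (by linarith) (fun t => by
        have := psi_lo L c hLp (by exact_mod_cast c3) t
        rw [Finset.sum_sub_distrib]
        simp only [Finset.sum_const, Finset.card_range, nsmul_eq_mul, mul_one]
        linarith) x K
    rw [Finset.sum_sub_distrib] at a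
    simp only [Finset.sum_const, Finset.card_range, nsmul_eq_mul, mul_one] at a
    have b := err K le_rfl
    have hK0 : (0 : ℝ) ≤ K := Nat.cast_nonneg _
    show (R - ε) * K ≤ ∑ j ∈ Finset.range K, psi L c (n (h^[j] x))
    refine le_of_mul_le_mul_left ?_ hL0
    have d1 : (K : ℝ) * (R * L - 3 / 8 * (ε * L)) ≤ K * (c - 2) :=
      mul_le_mul_of_nonneg_left (by linarith) hK0
    linarith
  · have a := upper h n U M L hMp hn hU (fun t => if psi L c t ≠ 0 then (1 : ℝ) else 0)
      (fun t => by split_ifs <;> norm_num) (fun t => by split_ifs <;> norm_num)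
      (c + 1) (by positivity) (psi_up L c hLp) x N
    rw [Finset.sum_boole] at a
    have e : {j : ℕ | j < N ∧ psi L c (n (h^[j] x)) ≠ 0} =
        ↑((Finset.range N).filter fun j => psi L c (n (h^[j] x)) ≠ 0) := by
      ext j; simp
    have b := err N hN
    have hN0 : (0 : ℝ) ≤ N := Nat.cast_nonneg _
    show (({j : ℕ | j < N ∧ psi L c (n (h^[j] x)) ≠ 0}.ncard : ℕ) : ℝ) ≤ (R + ε) * N
    rw [e, Set.ncard_coe_finset]
    refine le_of_mul_le_mul_left ?_ hL0
    have d1 : (N : ℝ) * (c + 1) ≤ N * (R * L + 3 / 8 * (ε * L)) :=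
      mul_le_mul_of_nonneg_left (by linarith) hN0
    linarith

end Vale.Agent.P093
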