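import Vale.Agent.P093.Stm

/-! P093: the level function. -/

open Filter Topology Set
open scoped ENNReal NNReal ComplexOrder Matrix

namespace Vale.Agent.P093

namespace Lvlx

variable {X : Type} [TopologicalSpace X]

theorem per (h : X ≃ₜ X) (x : X) (j : ℕ) (hx : h^[j] x = x) (q : ℤ) :
    (h ^ ((j : ℤ) * q)) x = x := by
  have hj : (h ^ (j : ℤ)) x = x := by rw [zp_nat, hx]
  induction q using Int.induction_on with
  | zero => simp
  | succ q ih => rw [mul_add, mul_one, zp_add, hj, ih]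
  | pred q ih =>
    apply (h ^ (j : ℤ)).injective
    rw [← zp_add, hj]
    have : (j : ℤ) + j * (-(q : ℤ) - 1) = j * (-(q : ℤ)) := by ring
    rw [this, ih]

theorem free [T2Space X] [Infinite X] (h : X ≃ₜ X) (hm : IsMinimal h) (x : X) (j : ℕ)
    (hj : 0 < j) : h^[j] x ≠ x := by
  intro hx
  have hfin : (range fun n : ℤ => (h ^ n) x).Finite := by
    refine ((Set.finite_Ico (0 : ℤ) j).image fun n : ℤ => (h ^ n) x).subset ?_
    rintro _ ⟨n, rfl⟩
    have hj' : (0 : ℤ) < j := by exact_mod_cast hj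
    refine ⟨n % j, ⟨Int.emod_nonneg _ hj'.ne', Int.emod_lt_of_pos _ hj'⟩, ?_⟩
    have e : n = n % j + j * (n / j) := (Int.emod_add_mul_ediv n j).symm
    show (h ^ (n % j)) x = (h ^ n) x
    conv_rhs => rw [e, zp_add, per h x j hx]
  have hc := (hm x).closure_eq
  rw [hfin.isClosed.closure_eq] at hc
  exact Set.infinite_univ (hc ▸ hfin)

theorem nbhd [T2Space X] [Infinite X] (h : X ≃ₜ X) (hm : IsMinimal h) (x₀ : X) (M : ℕ) :
    ∃ U : Set X, IsOpen U ∧ x₀ ∈ U ∧ ∀ x ∈ U, ∀ j, 0 < j → j < M → h^[j] x ∉ U := by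
  have key : ∀ j, 0 < j → ∃ V : Set X, IsOpen V ∧ x₀ ∈ V ∧ ∀ x ∈ V, h^[j] x ∉ V := by
    intro j hj
    obtain ⟨A, B, hA, hB, ha, hb, hAB⟩ := t2_separation (free h hm x₀ j hj)
    have hc : Continuous h^[j] := h.continuous.iterate j
    refine ⟨B ∩ h^[j] ⁻¹' A, hB.inter (hA.preimage hc), ⟨hb, ha⟩, fun x hx hx' => ?_⟩
    exact Set.disjoint_left.1 hAB hx.2 hx'.1
  choose! V hVo hVx hV using key
  refine ⟨⋂ j ∈ Finset.Ioo 0 M, V j, isOpen_biInter_finset fun j hj =>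
    hVo j (Finset.mem_Ioo.1 hj).1, mem_iInter₂.2 fun j hj => hVx j (Finset.mem_Ioo.1 hj).1, ?_⟩
  intro x hx j hj hjM hx'
  have hjm : j ∈ Finset.Ioo 0 M := Finset.mem_Ioo.2 ⟨hj, hjM⟩
  exact hV j hj x (mem_iInter₂.1 hx j hjm) (mem_iInter₂.1 hx' j hjm)

theorem ret [CompactSpace X] (h : X ≃ₜ X) (hm : IsMinimal h) {O : Set X} (hO : IsOpen O)
    (hne : O.Nonempty) : ∃ K : ℕ, ∀ x, ∃ i ≤ K, (h ^ (-(i : ℤ))) x ∈ O := by
  obtain ⟨t, ht⟩ := isCompact_univ.elim_finite_subcover (fun n : ℤ => (h ^ n) ⁻¹' O)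
    (fun n => hO.preimage (h ^ n).continuous) (by
      intro x _
      obtain ⟨y, ⟨n, rfl⟩, hy⟩ := (hm x).exists_mem_open hO hne
      exact mem_iUnion.2 ⟨n, hy⟩)
  obtain ⟨K, hK⟩ : ∃ K : ℕ, ∀ n ∈ t, n.natAbs ≤ K :=
    ⟨t.sup Int.natAbs, fun n hn => Finset.le_sup hn⟩
  refine ⟨2 * K, fun x => ?_⟩
  obtain ⟨n, hn, hx⟩ := mem_iUnion₂.1 (ht (mem_univ ((h ^ (-(K : ℤ))) x)))
  have h1 := hK n hn
  refine ⟨(K - n).toNat, by omega, ?_⟩
  have e : -(((K : ℤ) - n).toNat : ℤ) = n + -(K : ℤ) := by omega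
  rw [e, zp_add]
  exact hx

end Lvlx

open Lvlx in
theorem s_lvl : S_lvl := by
  intro X _ _ _ _ h M hm
  obtain ⟨x₀⟩ : Nonempty X := inferInstance
  obtain ⟨U, hUo, hx₀, hU⟩ := nbhd h hm x₀ M
  obtain ⟨C, hC, hCc, hCU⟩ := exists_mem_nhds_isClosed_subset (hUo.mem_nhds hx₀)
  obtain ⟨w, hw0, hw1, -⟩ := exists_continuous_zero_one_of_isClosed hUo.isClosed_compl hCc
    (Set.disjoint_left.2 fun x hx hx' => hx (hCU hx'))
  obtain ⟨K, hK⟩ := ret h hm (isOpen_interior (s := C)) ⟨x₀, mem_interior_iff_mem_nhds.2 hC⟩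
  let p : ℕ → X → ℝ := fun k x => ∏ i ∈ Finset.range (k + 1), (1 - w ((h ^ (-(i : ℤ))) x))
  have hp : ∀ k, Continuous (p k) := fun k =>
    continuous_finsetProd _ fun i _ =>
      continuous_const.sub (w.continuous.comp (h ^ (-(i : ℤ))).continuous)
  refine ⟨⟨fun x => ∑ k ∈ Finset.range (K + 1), p k x, continuous_finsetSum _ fun k _ => hp k⟩,
    U, fun x hx => ?_, hU⟩
  have w0 : w (h x) = 0 := hw0 hx
  have p0 : p 0 (h x) = 1 := by
    simp only [p, zero_add, Finset.prod_range_one, Nat.cast_zero, neg_zero, zpow_zero]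
    show 1 - w (h x) = 1
    rw [w0, sub_zero]
  have ps : ∀ k, p (k + 1) (h x) = p k x := by
    intro k
    simp only [p]
    rw [Finset.prod_range_succ']
    have e : ∀ i : ℕ, (h ^ (-((i + 1 : ℕ) : ℤ))) (h x) = (h ^ (-(i : ℤ))) x := by
      intro i
      have e1 : -(i : ℤ) = -((i + 1 : ℕ) : ℤ) + 1 := by push_cast; ring
      rw [e1, zp_add, zpow_one]
    simp only [e]
    simp [w0]
  have pK : p K x = 0 := by
    obtain ⟨i, hi, hx'⟩ := hK x
    refine Finset.prod_eq_zero (Finset.mem_range.2 (Nat.lt_succ_of_le hi)) ?_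
    have : w ((h ^ (-(i : ℤ))) x) = 1 := hw1 (interior_subset hx')
    rw [this, sub_self]
  show ∑ k ∈ Finset.range (K + 1), p k (h x) = ∑ k ∈ Finset.range (K + 1), p k x + 1
  rw [Finset.sum_range_succ', Finset.sum_range_succ (fun k => p k x), p0, pK, add_zero]
  simp only [ps]

end Vale.Agent.P093
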