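import Vale.Agent.P093.Stm

/-! P093: the upper bound for the mean dimension. -/

open Filter Topology Set
open scoped ENNReal NNReal ComplexOrder Matrix

namespace Vale.Agent.P093

namespace Mdx

theorem leb {X E : Type} [TopologicalSpace X] [CompactSpace X] [MetricSpace E] (I : ℤ → X → E)
    (hc : ∀ n, Continuous (I n)) (hi : ∀ x x', (∀ n, I n x = I n x') → x = x')
    {𝒰 : Finset (Set X)} (hU : IsCover 𝒰) : ∃ (R : ℕ) (δ : ℝ), 0 < δ ∧ ∀ x, ∃ U ∈ 𝒰, ∀ x',
      (∀ n : ℤ, |n| ≤ R → dist (I n x) (I n x') ≤ δ) → x' ∈ U := by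
  have mono : ∀ {k l : ℕ}, k ≤ l → (1 : ℝ) / (l + 1) ≤ 1 / (k + 1) := fun h =>
    Nat.one_div_le_one_div h
  have h1 : ∀ x0, ∃ U ∈ 𝒰, ∃ k : ℕ,
      {x | ∀ n : ℤ, |n| ≤ k → dist (I n x0) (I n x) ≤ 2 * (1 / (k + 1))} ⊆ U := by
    intro x0
    obtain ⟨U, u1, u2⟩ := hU.2 x0
    refine ⟨U, u1, exists_subset_nhds_of_compactSpace (directed_of_isDirected_le ?_) (fun k => ?_)
      fun x hx => ?_⟩
    · intro k l hkl x hx n hn
      exact (hx n (hn.trans (by exact_mod_cast hkl))).trans (by linarith [mono hkl])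
    · simp only [ofPred_forall]
      exact isClosed_iInter fun n => isClosed_iInter fun _ =>
        isClosed_le (continuous_const.dist (hc n)) continuous_const
    · have : x0 = x := hi _ _ fun n => by
        refine dist_le_zero.1 (ge_of_tendsto (f := fun k : ℕ => 2 * (1 / ((k : ℝ) + 1)))
          (x := atTop) ?_ ?_)
        · simpa using (tendsto_one_div_add_atTop_nhds_zero_nat (𝕜 := ℝ)).const_mul 2
        · filter_upwards [eventually_ge_atTop n.natAbs] with k hk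
          exact mem_iInter.1 hx k n (abs_le.2 ⟨by omega, by omega⟩)
      exact this ▸ (hU.1 U u1).mem_nhds u2
  choose U u1 k u2 using h1
  obtain ⟨t, ht⟩ := isCompact_univ.elim_finite_subcover
    (fun x0 => ⋂ n ∈ Finset.Icc (-(k x0 : ℤ)) (k x0), {x | dist (I n x0) (I n x) < 1 / (k x0 + 1)})
    (fun x0 => isOpen_biInter_finset fun n _ =>
      isOpen_lt (continuous_const.dist (hc n)) continuous_const)
    fun x _ => mem_iUnion.2 ⟨x, mem_iInter₂.2 fun n _ => by
      simp only [mem_ofPred_eq, dist_self]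
      positivity⟩
  refine ⟨t.sup k, 1 / (t.sup k + 1 : ℝ), by positivity, fun x => ?_⟩
  obtain ⟨x0, h0, hx⟩ := mem_iUnion₂.1 (ht (mem_univ x))
  have hk : k x0 ≤ t.sup k := Finset.le_sup h0
  refine ⟨U x0, u1 x0, fun x' hx' => u2 x0 fun n hn => ?_⟩
  have a1 : dist (I n x0) (I n x) < 1 / (k x0 + 1) :=
    mem_iInter₂.1 hx n (Finset.mem_Icc.2 (abs_le.1 hn))
  have a2 := hx' n (hn.trans (by exact_mod_cast hk))
  linarith [dist_triangle (I n x0) (I n x) (I n x'), mono hk]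

theorem cnt {L M d : ℕ} (S : Set (Fin L × Fin M)) (T : Set ℕ) (hT : T.Finite)
    (h1 : ∀ p ∈ S, (p.1 : ℕ) ∈ T) (h2 : ∀ j : Fin L, {a | (j, a) ∈ S}.ncard ≤ d) :
    S.ncard ≤ d * T.ncard := by
  classical
  rw [ncard_eq_toFinset_card S (toFinite S), ncard_eq_toFinset_card T hT]
  refine Finset.card_le_mul_card_image_of_maps_to (f := fun p => (p.1 : ℕ))
    (fun p hp => by simpa using h1 p (by simpa using hp)) d fun b _ => ?_
  by_cases hb : b < L
  · refine le_trans ?_ (h2 ⟨b, hb⟩)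
    rw [ncard_eq_toFinset_card _ (toFinite _)]
    refine Finset.card_le_card_of_injOn Prod.snd (fun p hp => ?_) fun p hp q hq e => ?_
    · simp only [Finset.coe_filter, Finite.mem_toFinset, mem_ofPred_eq] at hp
      obtain ⟨hp, rfl⟩ := hp
      simpa using hp
    · simp only [Finset.coe_filter, Finite.mem_toFinset, mem_ofPred_eq] at hp hq
      exact Prod.ext (Fin.ext (hp.2.trans hq.2.symm)) e
  · refine (Finset.card_eq_zero.2 (Finset.filter_false_of_mem fun p _ e => hb ?_)).le.trans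
      (Nat.zero_le _)
    exact e ▸ p.1.2

end Mdx

open Mdx in
theorem s_md (hc : S_cov) (hg : S_grid) : S_md := by
  intro X _ _ _ _ h M d K e ρ hK hd hB
  refine iSup_le fun 𝒰 => ENNReal.le_of_forall_pos_le_add fun ε hε _ => ?_
  obtain ⟨t, t0, t1⟩ : ∃ t : ℝ, 0 < t ∧ t * d + t = ε :=
    ⟨ε / (d + 1), by positivity, by field_simp⟩
  obtain ⟨R, δ, d0, hR⟩ := leb (fun n x => e ((h ^ n) x))
    (fun n => e.continuous.comp (h ^ n).continuous) hB.inj 𝒰.2
  obtain ⟨F, N₀, hF⟩ := hB.upper t t0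
  obtain ⟨θ, η, e0, g1, g2⟩ := hg M d K.faces F δ⁻¹ hK hd
  have key : ∀ N, N₀ ≤ N → (covD (join h 𝒰.1 N) : ℝ) ≤ d * ((ρ + t) * (N + 2 * R : ℕ)) := by
    intro N hN
    have b : ∀ x, (({i : Fin (N + 2 * R) × Fin M | ∃ k : ℤ,
        |δ⁻¹ * e (h^[i.1] ((h ^ (-R : ℤ)) x)) i.2 - θ i.2 - k| < η}.ncard : ℕ) : ℝ) ≤
        d * ((ρ + t) * (N + 2 * R : ℕ)) := fun x => by
      refine le_trans ?_ (mul_le_mul_of_nonneg_left
        (hF (N + 2 * R) (by omega) ((h ^ (-R : ℤ)) x)) d.cast_nonneg)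
      rw [← Nat.cast_mul, Nat.cast_le]
      refine cnt _ _ ((finite_lt_nat (N + 2 * R)).subset fun j hj => hj.1) ?_ fun j => ?_
      · rintro p ⟨k, hk⟩
        exact ⟨p.1.2, fun z => (g2 _ z _ k).not_gt hk⟩
      · obtain ⟨s, s1, s2⟩ := Geometry.SimplicialComplex.mem_space_iff.1
          (hB.mem (h^[j] ((h ^ (-R : ℤ)) x)))
        exact g1 s s1 _ s2
    obtain ⟨𝒲, w1, w2, w3⟩ := hc X (Fin (N + 2 * R) × Fin M)
      (fun x i => δ⁻¹ * e (h^[i.1] ((h ^ (-R : ℤ)) x)) i.2 - θ i.2) η _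
      (continuous_pi fun i => (continuous_const.mul ((continuous_apply i.2).comp (e.continuous.comp
        ((h.continuous.iterate _).comp (h ^ (-R : ℤ)).continuous)))).sub continuous_const) e0
      fun x => Nat.le_floor (b x)
    have c : covD (join h 𝒰.1 N) ≤ ord 𝒲 := by
      refine Nat.sInf_le ⟨𝒲, w1, fun W hW => ?_, rfl⟩
      obtain ⟨x, hx⟩ : ∃ x, ∀ x' ∈ W, x ∈ W := by
        rcases W.eq_empty_or_nonempty with rfl | ⟨x, hx⟩
        · exact ⟨Classical.arbitrary X, fun _ z => z.elim⟩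
        · exact ⟨x, fun _ _ => hx⟩
      choose U u1 u2 using fun j : Fin N => hR (h^[j] x)
      classical
      refine ⟨_, Finset.mem_image.2 ⟨U, Fintype.mem_piFinset.2 u1, rfl⟩, fun x' hx' =>
        mem_iInter.2 fun j => u2 j _ fun n hn => (dist_pi_le_iff d0.le).2 fun a => ?_⟩
      have hn' := abs_le.1 hn
      have hj := j.2
      have z := w3 W hW x (hx x' hx') x' hx' (⟨(n + j + R).toNat, by omega⟩, a)
      have y : ∀ x, h^[(n + j + R).toNat] ((h ^ (-R : ℤ)) x) = (h ^ n) (h^[j] x) := fun x => by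
        rw [← zp_nat, ← zp_nat, ← zp_add, ← zp_add]
        congr 2
        omega
      simp only [y, sub_sub_sub_cancel_right] at z
      rwa [← mul_sub, abs_mul, abs_of_pos (inv_pos.2 d0), inv_mul_le_iff₀ d0, mul_one] at z
    exact (Nat.cast_le.2 (c.trans w2)).trans
      (Nat.floor_le ((Nat.cast_nonneg _).trans (b (Classical.arbitrary X))))
  refine limsup_le_of_le (by isBoundedDefault) ?_
  have lim := tendsto_const_div_atTop_nhds_zero_nat (d * ((ρ + t) * (2 * R)) : ℝ)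
  filter_upwards [eventually_ge_atTop N₀, eventually_gt_atTop 0,
    lim.eventually (eventually_le_nhds t0)] with N h1 h2 h3
  have n0 : (0 : ℝ) < N := by exact_mod_cast h2
  rw [← ENNReal.ofReal_natCast, ← ENNReal.ofReal_natCast N, ← ENNReal.ofReal_div_of_pos n0,
    ← ENNReal.ofReal_coe_nnreal]
  refine (ENNReal.ofReal_le_ofReal ?_).trans ENNReal.ofReal_add_le
  have k := key N h1
  rw [div_le_iff₀ n0] at h3 ⊢
  push_cast at k
  rw [← t1]
  nlinarith

end Vale.Agent.P093
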