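import Vale.Agent.P093.Stm

/-! P093: the obstruction to comparison. -/

open Filter Topology Set
open scoped ENNReal NNReal ComplexOrder Matrix

namespace Vale.Agent.P093

namespace Ncx

open Classical in
theorem vdm {ι : Type} (S : Finset ι) (ν η : ι → ℂ) (K : ℕ) (hν : Function.Injective ν)
    (hK : (S.filter fun i => η i ≠ 0).card ≤ K) (h : ∀ l < K, ∑ i ∈ S, η i * ν i ^ l = 0) :
    ∀ i ∈ S, η i = 0 := by
  intro i hi
  by_contra h0
  set S' := S.filter fun i => η i ≠ 0 with hS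
  have k := Matrix.eq_zero_of_forall_pow_sum_mul_pow_eq_zero
    (f := fun j => ν (S'.equivFin.symm j)) (v := fun j => η (S'.equivFin.symm j))
    (hν.comp (Subtype.val_injective.comp S'.equivFin.symm.injective)) fun l => by
      rw [S'.equivFin.symm.sum_comp fun j : S' => η j * ν j ^ (l : ℕ),
        Finset.sum_coe_sort S' fun j => η j * ν j ^ (l : ℕ), ← h l (l.2.trans_le hK)]
      exact Finset.sum_filter_of_ne fun j _ e => left_ne_zero_of_mul e
  have k2 := congrFun k (S'.equivFin ⟨i, Finset.mem_filter.2 ⟨hi, h0⟩⟩)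
  rw [Equiv.symm_apply_apply] at k2
  exact h0 k2

open Classical in
theorem cnt {X : Type} [TopologicalSpace X] (h : X ≃ₜ X) (g : C(X, ℝ)) (x : X) (N R q : ℕ)
    (η : ℤ × Fin q → ℂ) (hη : ∀ k, η k ≠ 0 → g ((h ^ k.1) x) ≠ 0) :
    ((Finset.Ico (-(R : ℤ)) (N + R) ×ˢ Finset.univ).filter fun k => η k ≠ 0).card ≤
      q * {j : ℕ | j < N + 2 * R ∧ g (h^[j] ((h ^ (-(R : ℤ))) x)) ≠ 0}.ncard := by
  have h1 : ((Finset.Ico (-(R : ℤ)) (N + R) ×ˢ Finset.univ).filter fun k => η k ≠ 0) ⊆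
      ((Finset.Ico (-(R : ℤ)) (N + R)).filter fun k => g ((h ^ k) x) ≠ 0) ×ˢ Finset.univ :=
    fun k hk => Finset.mem_product.2 ⟨Finset.mem_filter.2
      ⟨(Finset.mem_product.1 (Finset.mem_filter.1 hk).1).1, hη k (Finset.mem_filter.1 hk).2⟩,
      Finset.mem_univ _⟩
  refine (Finset.card_le_card h1).trans ?_
  rw [Finset.card_product, Finset.card_univ, Fintype.card_fin, mul_comm, ← Set.ncard_coe_finset]
  have hf : {j : ℕ | j < N + 2 * R ∧ g (h^[j] ((h ^ (-(R : ℤ))) x)) ≠ 0}.Finite :=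
    (Set.finite_lt_nat _).subset fun _ hj => hj.1
  refine Nat.mul_le_mul_left _ ((Set.ncard_le_ncard ?_ (hf.image fun j : ℕ => (j : ℤ) - R)).trans
    (Set.ncard_image_le hf))
  intro k hk
  obtain ⟨h2, h3⟩ := Finset.mem_filter.1 (Finset.mem_coe.1 hk)
  rw [Finset.mem_Ico] at h2
  have e : (((k + R).toNat : ℕ) : ℤ) + -(R : ℤ) = k := by omega
  refine ⟨(k + R).toNat, ⟨by omega, ?_⟩, e⟩
  rwa [← zp_nat, ← zp_add, e]

variable {n : ℕ} {Λ : Type} [DecidableEq Λ]

/-- the test vectors -/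
noncomputable def ze (pos : Fin n → ℕ × Λ) (y : Fin n → Fin 3 → ℝ) (w : Fin n → Fin 2 → ℂ) (i : ℕ)
    (l : Λ) (b : Fin 2) : ℂ :=
  ∑ r, if pos r = (i, l) then (pr (y r) *ᵥ w r) b else 0

theorem ze_neg (pos : Fin n → ℕ × Λ) (y : Fin n → Fin 3 → ℝ) (w : Fin n → Fin 2 → ℂ) (i : ℕ)
    (l : Λ) (b : Fin 2) : ze pos y (-w) i l b = -ze pos y w i l b := by
  rw [ze, ze, ← Finset.sum_neg_distrib]
  refine Finset.sum_congr rfl fun r _ => ?_
  split_ifs
  · rw [Pi.neg_apply, Matrix.mulVec_neg, Pi.neg_apply]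
  · rw [neg_zero]

theorem ze_cont (pos : Fin n → ℕ × Λ) (i : ℕ) (l : Λ) (b : Fin 2) :
    Continuous fun z : (Fin n → Fin 3 → ℝ) × (Fin n → Fin 2 → ℂ) => ze pos z.1 z.2 i l b := by
  refine continuous_finsetSum _ fun r _ => ?_
  split_ifs
  · simp only [Matrix.mulVec, dotProduct]
    refine continuous_finsetSum _ fun c _ => Continuous.mul ?_ (by fun_prop)
    exact (pr_cont b c).comp ((continuous_apply r).comp continuous_fst)
  · exact continuous_const

theorem ze_pos {pos : Fin n → ℕ × Λ} (hp : Function.Injective pos) (y : Fin n → Fin 3 → ℝ)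
    (w : Fin n → Fin 2 → ℂ) (r : Fin n) (b : Fin 2) :
    ze pos y w (pos r).1 (pos r).2 b = (pr (y r) *ᵥ w r) b := by
  rw [ze, Finset.sum_eq_single r (fun r' _ e => if_neg fun k => e (hp k))
    fun k => absurd (Finset.mem_univ r) k, if_pos rfl]

theorem ze_fix {pos : Fin n → ℕ × Λ} {y : Fin n → Fin 3 → ℝ} (hy : ∀ r, Un (y r))
    (w : Fin n → Fin 2 → ℂ) (i : ℕ) (l : Λ) (b : Fin 2) (f : ℝ) (v : Fin 3 → ℝ)
    (h : ∀ r, pos r = (i, l) → f = 1 ∧ v = y r) :
    ∑ c, f * pr v b c * ze pos y w i l c = ze pos y w i l b := by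
  simp only [ze, Finset.mul_sum]
  rw [Finset.sum_comm]
  refine Finset.sum_congr rfl fun r _ => ?_
  split_ifs with k
  · obtain ⟨rfl, rfl⟩ := h r k
    have e := congrFun (Matrix.mulVec_mulVec (w r) (pr (y r)) (pr (y r))) b
    rw [pr_mul (hy r)] at e
    simpa [Matrix.mulVec, dotProduct] using e
  · simp

end Ncx

open Ncx in
theorem s_nc (ho : S_obs) : S_nc := by
  intro X _ h Λ _ _ φ u p q σ a g t β ha hβ hqt hS ⟨N1, hF⟩ ⟨R, V, hV, hC⟩
  obtain ⟨N2, hN2⟩ := exists_nat_gt (q * β * (2 * R) / (2 * t - q * β))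
  obtain ⟨N, hN, n, hn, pos, hp, hpN, s, hs, hsy⟩ := hS (N1 + N2)
  have h0 : 0 ≤ q * β * (N + 2 * R : ℕ) := by positivity
  have hK : ⌊q * β * (N + 2 * R : ℕ)⌋₊ < 2 * n := by
    rw [Nat.floor_lt h0]
    rw [div_lt_iff₀ (sub_pos.2 hqt)] at hN2
    have h1 : (N2 : ℝ) ≤ N := by exact_mod_cast le_of_add_le_right hN
    have h2 := mul_le_mul_of_nonneg_right h1 (sub_pos.2 hqt).le
    push_cast
    nlinarith
  obtain ⟨y, w, hy, hT, r, hr⟩ := ho n _ (fun y w l =>
    ∑ k ∈ Finset.Ico (-(R : ℤ)) (N + R) ×ˢ (Finset.univ : Finset (Fin q)),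
      (g ((h ^ k.1) (s y)) * ∑ i ∈ Finset.range N, ∑ t,
        V (s y) k.1 k.2 i t * ze pos y w i (σ t).1 (σ t).2) *
          (Encodable.encode k : ℂ) ^ (l : ℕ)) hK
    (by
      have h1 : ContinuousOn (fun z : (Fin n → Fin 3 → ℝ) × (Fin n → Fin 2 → ℂ) => s z.1)
          {z | ∀ r, Un (z.1 r)} := hs.comp continuousOn_fst fun _ hz => hz
      refine continuousOn_pi.2 fun l => continuousOn_finsetSum _ fun k _ =>
        (ContinuousOn.mul ?_ (continuousOn_finsetSum _ fun i _ => continuousOn_finsetSum _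
          fun t _ => ((hV _ _ _ _).comp_continuousOn h1).mul (ze_cont _ _ _ _).continuousOn)).mul
          continuousOn_const
      exact (Complex.continuous_ofReal.comp
        (g.continuous.comp (h ^ k.1).continuous)).comp_continuousOn h1)
    fun y w => funext fun l => by
      simp only [ze_neg, mul_neg, neg_mul, Finset.sum_neg_distrib, Pi.neg_apply]
  have h1 := vdm _ (fun k : ℤ × Fin q => (Encodable.encode k : ℂ)) _ _
    (Nat.cast_injective.comp Encodable.encode_injective)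
    (Nat.le_floor ((Nat.cast_le.2 (cnt h g (s y) N R q _ fun k e e' =>
      left_ne_zero_of_mul e (by rw [e', Complex.ofReal_zero]))).trans (by
        rw [Nat.cast_mul, mul_assoc]
        exact mul_le_mul_of_nonneg_left (hF _ (by omega) _) (Nat.cast_nonneg q))))
    fun l hl => congrFun hT ⟨l, hl⟩
  have h2 := hC (s y) N (fun i t => ze pos y w i (σ t).1 (σ t).2) fun k hk b =>
    h1 (k, b) (Finset.mem_product.2 ⟨hk, Finset.mem_univ _⟩)
  have h3 : ∀ i t, ∑ t', star (ze pos y w i (σ t).1 (σ t).2) * a t t' (h^[i] (s y)) *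
      ze pos y w i (σ t').1 (σ t').2 = ((‖ze pos y w i (σ t).1 (σ t).2‖ ^ 2 : ℝ) : ℂ) := by
    intro i t
    simp only [mul_assoc, ← Finset.mul_sum, ha]
    rw [σ.sum_comp fun c => (if (σ t).1 = c.1 then (φ (σ t).1 (h^[i] (s y)) : ℂ) *
      pr (u (σ t).1 (h^[i] (s y))) (σ t).2 c.2 else 0) * ze pos y w i c.1 c.2,
      Fintype.sum_prod_type, Finset.sum_eq_single (σ t).1 (fun l _ e => by simp [e.symm])
        fun k => absurd (Finset.mem_univ _) k]
    simp only [if_true]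
    rw [ze_fix hy w i _ _ _ _ fun r e => by simpa [e] using hsy y hy r, Complex.star_def,
      Complex.conj_mul']
    push_cast
    rfl
  simp only [h3, ← Complex.ofReal_sum, Complex.ofReal_re] at h2
  have h4 := (Finset.sum_eq_zero_iff_of_nonneg fun i _ =>
    Finset.sum_nonneg fun t _ => sq_nonneg ‖ze pos y w i (σ t).1 (σ t).2‖).1
      (le_antisymm (by linarith) (by positivity)) (pos r).1 (Finset.mem_range.2 (hpN r))
  refine hr (funext fun b => ?_)
  have h5 := (Finset.sum_eq_zero_iff_of_nonneg fun t _ => sq_nonneg _).1 h4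
    (σ.symm ((pos r).2, b)) (Finset.mem_univ _)
  rw [Equiv.apply_symm_apply, ze_pos hp] at h5
  simpa using h5

end Vale.Agent.P093
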