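import Vale.Agent.P093.Stm

/-! P093: the obstruction for sums of Hopf line bundles. -/

open Filter Topology Set
open scoped ENNReal NNReal ComplexOrder Matrix

namespace Vale.Agent.P093

namespace Obsx

/-- The Hopf map. -/
noncomputable def yv (a b c : ℝ) : Fin 3 → ℝ :=
  ![(a ^ 2 + b ^ 2 - c ^ 2) / (a ^ 2 + b ^ 2 + c ^ 2), 2 * a * c / (a ^ 2 + b ^ 2 + c ^ 2),
    2 * b * c / (a ^ 2 + b ^ 2 + c ^ 2)]

theorem yv_un {a b c : ℝ} (h : a ^ 2 + b ^ 2 + c ^ 2 ≠ 0) : Un (yv a b c) := by
  simp only [Un, yv, Matrix.cons_val_zero, Matrix.cons_val_one, Matrix.cons_val]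
  field_simp
  ring

theorem yv_neg (a b c : ℝ) : yv (-a) (-b) (-c) = yv a b c := by
  simp only [yv, neg_sq, mul_neg, neg_mul, neg_neg]

theorem zero_of {a b c : ℝ} (h : a ^ 2 + b ^ 2 + c ^ 2 ≠ 0) (w : Fin 2 → ℂ)
    (h1 : pr (yv a b c) *ᵥ w = 0)
    (h2 : -(c : ℂ) * w 0 + (a + Complex.I * b) * w 1 = 0) : w = 0 := by
  have hc : (a : ℂ) ^ 2 + b ^ 2 + c ^ 2 ≠ 0 := by exact_mod_cast h
  have e := Complex.I_mul_I
  have r0 := congrFun h1 0
  have r1 := congrFun h1 1
  simp only [pr, yv, Matrix.mulVec, dotProduct, Fin.sum_univ_two, Matrix.of_apply,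
    Matrix.cons_val_zero, Matrix.cons_val_one, Matrix.cons_val, Matrix.cons_val', Pi.zero_apply,
    Matrix.cons_val_fin_one] at r0 r1
  push_cast at r0 r1
  field_simp at r0 r1
  have w0 : w 0 = 0 := by
    apply mul_left_cancel₀ hc
    linear_combination r0 / 2 - (c : ℂ) * h2
  have w1 : w 1 = 0 := by
    apply mul_left_cancel₀ hc
    rw [w0] at r1 h2
    linear_combination r1 / 2 + ((a : ℂ) - Complex.I * b) * h2 + (b : ℂ) ^ 2 * w 1 * e
  ext i
  fin_cases i
  · exact w0
  · exact w1

/-- Real or imaginary part. -/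
def pt (bb : Bool) (z : ℂ) : ℝ := cond bb z.re z.im

theorem pt_neg (bb : Bool) (z : ℂ) : pt bb (-z) = -pt bb z := by cases bb <;> simp [pt]

theorem pt_cont (bb : Bool) : Continuous (pt bb) := by
  cases bb
  · exact Complex.continuous_im
  · exact Complex.continuous_re

theorem pt_zero {z : ℂ} (h : ∀ bb, pt bb z = 0) : z = 0 := Complex.ext (h true) (h false)

end Obsx

open Obsx in
theorem s_obs (hb : S_bu) : S_obs := by
  classical
  intro n K T hK hT hodd
  by_contra hcon
  push Not at hcon
  obtain ⟨d, hd⟩ : ∃ d, d + 1 = 4 * n := ⟨4 * n - 1, by omega⟩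
  let e : Fin n × Fin 2 × Fin 2 ≃ Fin (d + 1) := Fintype.equivFinOfCardEq (by simp; omega)
  let i0 : Fin (d + 1) := ⟨0, by omega⟩
  let i1 : Fin (d + 1) := ⟨1, by omega⟩
  let i2 : Fin (d + 1) := ⟨2, by omega⟩
  let W : (Fin (n + 1) → Fin (d + 1) → ℝ) → Fin n → Fin 2 → ℂ :=
    fun Y r a => Y 0 (e (r, a, 0)) + Complex.I * Y 0 (e (r, a, 1))
  let y : (Fin (n + 1) → Fin (d + 1) → ℝ) → Fin n → Fin 3 → ℝ :=
    fun Y r => yv (Y r.succ i0) (Y r.succ i1) (Y r.succ i2)
  let q : (Fin (n + 1) → Fin (d + 1) → ℝ) → Fin n → ℂ := fun Y r =>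
    -(Y r.succ i2 : ℂ) * W Y r 0 + (Y r.succ i0 + Complex.I * Y r.succ i1) * W Y r 1
  let ν : Fin (n + 1) → ℕ := Fin.cases d fun _ => 2
  have hrho : ∀ Y ∈ Sub (n + 1) d ν, ∀ r : Fin n,
      Y r.succ i0 ^ 2 + Y r.succ i1 ^ 2 + Y r.succ i2 ^ 2 ≠ 0 := by
    intro Y hY r h0
    have h1 := hY.1 r.succ
    have z0 : Y r.succ i0 = 0 := by nlinarith [sq_nonneg (Y r.succ i1), sq_nonneg (Y r.succ i2)]
    have z1 : Y r.succ i1 = 0 := by nlinarith [sq_nonneg (Y r.succ i0), sq_nonneg (Y r.succ i2)]
    have z2 : Y r.succ i2 = 0 := by nlinarith [sq_nonneg (Y r.succ i0), sq_nonneg (Y r.succ i1)]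
    have hz : ∀ a, Y r.succ a = 0 := by
      intro a
      by_cases ha : 2 < a.val
      · exact hY.2 r.succ a ha
      · have : a = i0 ∨ a = i1 ∨ a = i2 := by
          simp only [Fin.ext_iff, i0, i1, i2]; omega
        rcases this with rfl | rfl | rfl <;> assumption
    simp [hz] at h1
  have hWc : Continuous W := by
    refine continuous_pi fun r => continuous_pi fun a => ?_
    simp only [W]
    fun_prop
  have hW0 : ∀ Y, W (Function.update Y 0 (-Y 0)) = -W Y := by
    intro Y; ext r a
    simp only [W, Function.update_self, Pi.neg_apply]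
    push_cast; ring
  have hWs : ∀ Y (s : Fin n), W (Function.update Y s.succ (-Y s.succ)) = W Y := by
    intro Y s; ext r a
    simp only [W, Function.update_of_ne (Fin.succ_ne_zero s).symm]
  have hy0 : ∀ Y, y (Function.update Y 0 (-Y 0)) = y Y := by
    intro Y; funext r
    simp only [y, Function.update_of_ne (Fin.succ_ne_zero r)]
  have hys : ∀ Y (s : Fin n), y (Function.update Y s.succ (-Y s.succ)) = y Y := by
    intro Y s; funext r
    by_cases h : r = s
    · subst h
      simp only [y, Function.update_self, Pi.neg_apply, yv_neg]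
    · simp only [y, Function.update_of_ne ((Fin.succ_injective n).ne h)]
  obtain ⟨Y, hY, h0⟩ := hb (n + 1) d ((Fin K × Bool) ⊕ (Fin n × Bool))
    (Sum.elim (fun _ => {0}) fun p => {0, p.1.succ}) (Sum.elim (fun _ => 0) fun p => p.1.succ)
    (Fin.cases 0 fun _ => 1) ν
    (fun Y => Sum.elim (fun p => pt p.2 (T (y Y) (W Y) p.1)) fun p => pt p.2 (q Y p.1))
    (by rintro (p | p) <;> simp)
    (by
      rintro (p | p) i hi hne
      · simp at hi hne; exact absurd hi hne
      · simp only [Sum.elim_inr, Finset.mem_insert, Finset.mem_singleton] at hi hne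
        rcases hi with rfl | hi
        · simp
        · exact absurd hi hne)
    (by
      intro i
      refine Fin.cases ?_ (fun r => ?_) i
      · refine (Finset.card_le_card (t := Finset.univ.image Sum.inl) ?_).trans
          (Finset.card_image_le.trans ?_)
        · rintro (p | p) hp
          · simp
          · simp at hp
        · simp [ν]; omega
      · refine (Finset.card_le_card (t := Finset.univ.image fun bb => Sum.inr (r, bb)) ?_).trans
          (Finset.card_image_le.trans ?_)
        · rintro (p | ⟨s, bb⟩) hp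
          · simp [(Fin.succ_ne_zero r).symm] at hp
          · simp only [Finset.mem_filter, Finset.mem_univ, true_and, Sum.elim_inr,
              Fin.succ_inj] at hp
            subst hp
            exact Finset.mem_image_of_mem _ (Finset.mem_univ bb)
        · simp [ν])
    (by
      intro i
      refine Fin.cases ?_ (fun r => ?_) i
      · simp [ν]
      · simp [ν]; omega)
    (by
      refine continuousOn_pi.2 ?_
      rintro (p | p)
      · refine (pt_cont p.2).comp_continuousOn ?_
        refine (continuous_apply p.1).comp_continuousOn ?_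
        refine hT.comp (f := fun Y => (y Y, W Y)) (ContinuousOn.prodMk ?_ hWc.continuousOn)
          fun Y hY r => yv_un (hrho Y hY r)
        refine continuousOn_pi.2 fun r => continuousOn_pi.2 fun l => ?_
        fin_cases l <;>
        · simp only [y, yv]
          exact ContinuousOn.div (by fun_prop) (by fun_prop) fun Y hY => hrho Y hY r
      · refine ((pt_cont p.2).comp ?_).continuousOn
        simp only [q]
        fun_prop)
    (by
      intro Y _ i c
      refine Fin.cases ?_ (fun s => ?_) i
      · rcases c with p | p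
        · simp [hW0, hy0, hodd, pt_neg]
        · simp only [Sum.elim_inr, Finset.mem_insert, true_or, if_true, q, hW0,
            Function.update_of_ne (Fin.succ_ne_zero p.1), Pi.neg_apply, ← pt_neg]
          congr 1; ring
      · rcases c with p | p
        · simp [hWs, hys]
        · by_cases h : s = p.1
          · subst h
            simp only [Sum.elim_inr, Finset.mem_insert, Finset.mem_singleton, or_true, if_true, q,
              hWs, Function.update_self, Pi.neg_apply, ← pt_neg]
            congr 1; push_cast; ring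
          · have h' : p.1.succ ≠ s.succ := (Fin.succ_injective n).ne (Ne.symm h)
            simp [q, hWs, Function.update_of_ne h', h])
  have hT0 : T (y Y) (W Y) = 0 := funext fun l => pt_zero fun bb => congrFun h0 (Sum.inl (l, bb))
  have hW : ∀ r, W Y r = 0 := fun r => zero_of (hrho Y hY r) _
    (hcon (y Y) (W Y) (fun r => yv_un (hrho Y hY r)) hT0 r)
    (pt_zero fun bb => congrFun h0 (Sum.inr (r, bb)))
  have hz : ∀ a, Y 0 a = 0 := by
    intro a
    obtain ⟨⟨r, b, t⟩, rfl⟩ := e.surjective a
    have h1 := congrFun (hW r) b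
    have hre := congrArg Complex.re h1
    have him := congrArg Complex.im h1
    simp [W] at hre him
    fin_cases t
    · exact hre
    · exact him
  have h1 := hY.1 0
  simp [hz] at h1

end Vale.Agent.P093
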