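import Vale.Agent.P093.Stm

/-! P093: twisted data from free coordinates. -/

open Filter Topology Set
open scoped ENNReal NNReal ComplexOrder Matrix

namespace Vale.Agent.P093

namespace Twx

variable {X : Type} [TopologicalSpace X] (h : X ≃ₜ X) {κ : Type} (f : κ → C(X, ℝ)) {c L Q : ℕ}
  (ν : (Fin (c + 1) → Fin L × κ) × Fin (c + 1) ≃ Fin Q)

/-- Rescaled coordinates along a pattern. -/
noncomputable def Y (P : Fin (c + 1) → Fin L × κ) : C(X, Fin (c + 1) → ℝ) :=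
  ⟨fun x l => Q * f (P l).2 (h^[(P l).1] x) - (ν (P, l) : ℕ), continuous_pi fun l =>
    (continuous_const.mul ((f (P l).2).continuous.comp (h.continuous.iterate _))).sub
      continuous_const⟩

theorem Y_it (P : Fin (c + 1) → Fin L × κ) (i : ℕ) (x : X) (l : Fin (c + 1)) :
    Y h f ν P (h^[i] x) l = Q * f (P l).2 (h^[i + (P l).1] x) - (ν (P, l) : ℕ) := by
  rw [add_comm i, Function.iterate_add_apply]; rfl

theorem cnt [Fintype κ] (x : X) (N : ℕ) (A : Finset (ℕ × (Fin (c + 1) → Fin L × κ)))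
    (hA : ∀ a ∈ A, a.1 < N ∧ ∀ l, Y h f ν a.2 (h^[a.1] x) l ∈ Ioo (0 : ℝ) 1) :
    A.card * (c + 1) ≤
      {p : ℕ × κ | p.1 < N + L ∧ f p.2 (h^[p.1] x) ∈ Ioo (0 : ℝ) 1}.ncard := by
  classical
  have hfin : {p : ℕ × κ | p.1 < N + L ∧ f p.2 (h^[p.1] x) ∈ Ioo (0 : ℝ) 1}.Finite :=
    ((Set.finite_Iio (N + L)).prod (Set.finite_univ (α := κ))).subset fun p hp => ⟨hp.1, trivial⟩
  have e : A.card * (c + 1) = (A ×ˢ (Finset.univ : Finset (Fin (c + 1)))).card := by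
    rw [Finset.card_product, Finset.card_univ, Fintype.card_fin]
  rw [e, ← Set.ncard_coe_finset]
  refine Set.ncard_le_ncard_of_injOn
    (fun q => ((q.1.1 + (q.1.2 q.2).1, (q.1.2 q.2).2) : ℕ × κ)) ?_ ?_ hfin
  · intro q hq
    obtain ⟨h1, h2⟩ := hA q.1 (Finset.mem_product.1 hq).1
    have h3 := h2 q.2
    rw [Y_it] at h3
    have h4 : (((ν (q.1.2, q.2) : ℕ) : ℝ) + 1) ≤ Q := by exact_mod_cast (ν (q.1.2, q.2)).2
    have h5 : (0 : ℝ) ≤ (ν (q.1.2, q.2) : ℕ) := Nat.cast_nonneg _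
    have hQ : (0 : ℝ) < Q := by linarith
    refine ⟨?_, ?_, ?_⟩
    · have := (q.1.2 q.2).1.2
      show q.1.1 + (q.1.2 q.2).1 < N + L
      omega
    · exact pos_of_mul_pos_left (by linarith [h3.1] : 0 < _ * (Q : ℝ)) hQ.le
    · exact lt_of_mul_lt_mul_left (by linarith [h3.2] : (Q : ℝ) * _ < Q * 1) hQ.le
  · intro q hq q' hq' e
    have h3 := (hA q.1 (Finset.mem_product.1 hq).1).2 q.2
    have h3' := (hA q'.1 (Finset.mem_product.1 hq').1).2 q'.2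
    rw [Y_it] at h3 h3'
    obtain ⟨e1, e2⟩ := Prod.mk.inj e
    rw [e1, e2] at h3
    have a1 : ((ν (q.1.2, q.2) : ℕ) : ℝ) < (ν (q'.1.2, q'.2) : ℕ) + 1 := by
      linarith [h3.1, h3'.2]
    have a2 : ((ν (q'.1.2, q'.2) : ℕ) : ℝ) < (ν (q.1.2, q.2) : ℕ) + 1 := by
      linarith [h3.2, h3'.1]
    have b1 : (ν (q.1.2, q.2) : ℕ) < (ν (q'.1.2, q'.2) : ℕ) + 1 := by exact_mod_cast a1
    have b2 : (ν (q'.1.2, q'.2) : ℕ) < (ν (q.1.2, q.2) : ℕ) + 1 := by exact_mod_cast a2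
    obtain ⟨e3, e4⟩ := Prod.mk.inj (ν.injective (Fin.ext (by omega) :
      ν (q.1.2, q.2) = ν (q'.1.2, q'.2)))
    rw [e3, e4] at e1
    exact Prod.ext (Prod.ext (by omega) e3) e4

theorem sum_le {P : Type} [Fintype P] (m N : ℕ) (F : ℕ → P → ℝ) (h0 : ∀ i p, 0 ≤ F i p)
    (h1 : ∀ i p, F i p ≤ 1) {s : ℝ} (hs : 0 < s) :
    ∃ A : Finset (ℕ × P), (∀ a ∈ A, a.1 < N ∧ F a.1 a.2 ≠ 0) ∧
      ∑ i ∈ Finset.range N, ∑ l : P × Fin m, F i l.1 ^ s ≤ m * A.card := by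
  classical
  refine ⟨(Finset.range N ×ˢ Finset.univ).filter fun a => F a.1 a.2 ≠ 0, fun a ha => ?_, ?_⟩
  · obtain ⟨h2, h3⟩ := Finset.mem_filter.1 ha
    exact ⟨Finset.mem_range.1 (Finset.mem_product.1 h2).1, h3⟩
  rw [Finset.card_filter, Finset.sum_product, Nat.cast_sum, Finset.mul_sum]
  refine Finset.sum_le_sum fun i _ => ?_
  rw [Fintype.sum_prod_type, Nat.cast_sum, Finset.mul_sum]
  refine Finset.sum_le_sum fun p _ => ?_
  simp only [Finset.sum_const, Finset.card_univ, Fintype.card_fin, nsmul_eq_mul]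
  refine mul_le_mul_of_nonneg_left ?_ (Nat.cast_nonneg _)
  split_ifs with h2
  · rw [Nat.cast_one]
    exact Real.rpow_le_one (h0 i p) (h1 i p) hs.le
  · rw [not_not.1 h2, Real.zero_rpow hs.ne', Nat.cast_zero]

theorem sec {n : ℕ} (i : Fin n → ℕ) (P : Fin n → Fin (c + 1) → Fin L × κ)
    (hinj : Function.Injective (fun q : Fin n × Fin (c + 1) =>
      ((i q.1 + (P q.1 q.2).1, (P q.1 q.2).2) : ℕ × κ))) (J : Finset (ℕ × κ))
    (hJ : ∀ r l, ((i r + (P r l).1, (P r l).2) : ℕ × κ) ∈ J) (s : (ℕ × κ → ℝ) → X)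
    (hs : ContinuousOn s {y | ∀ p, y p ∈ Icc (0 : ℝ) 1})
    (hf : ∀ y, (∀ p, y p ∈ Icc (0 : ℝ) 1) → ∀ p ∈ J, f p.2 (h^[p.1] (s y)) = y p) :
    ∃ s' : (Fin n → Fin (c + 1) → ℝ) → X,
      ContinuousOn s' {w | ∀ r l, w r l ∈ Icc (0 : ℝ) 1} ∧
      ∀ w, (∀ r l, w r l ∈ Icc (0 : ℝ) 1) → ∀ r, Y h f ν (P r) (h^[i r] (s' w)) = w r := by
  set g := (fun q : Fin n × Fin (c + 1) => ((i q.1 + (P q.1 q.2).1, (P q.1 q.2).2) : ℕ × κ))
    with hg
  set E : (Fin n → Fin (c + 1) → ℝ) → ℕ × κ → ℝ := fun w =>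
    Function.extend g (fun q => (w q.1 q.2 + (ν (P q.1, q.2) : ℕ)) / Q) 0 with hE
  have hQ : ∀ a, (((ν a : ℕ) : ℝ) + 1) ≤ Q := fun a => by exact_mod_cast (ν a).2
  have hQ' : ∀ a : (Fin (c + 1) → Fin L × κ) × Fin (c + 1), (0 : ℝ) < Q := fun a => by
    linarith [hQ a, (Nat.cast_nonneg (ν a : ℕ) : (0 : ℝ) ≤ _)]
  have e1 : ∀ w q, E w (g q) = (w q.1 q.2 + (ν (P q.1, q.2) : ℕ)) / Q := fun w q =>
    hinj.extend_apply _ _ q
  have e2 : ∀ w p, (¬∃ q, g q = p) → E w p = 0 := fun w p hp => Function.extend_apply' _ _ p hp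
  have hm : ∀ w, (∀ r l, w r l ∈ Icc (0 : ℝ) 1) → ∀ p, E w p ∈ Icc (0 : ℝ) 1 := by
    intro w hw p
    by_cases hp : ∃ q, g q = p
    · obtain ⟨q, rfl⟩ := hp
      rw [e1]
      have a := hw q.1 q.2
      have b := hQ' (P q.1, q.2)
      exact ⟨div_nonneg (add_nonneg a.1 (Nat.cast_nonneg _)) b.le,
        (div_le_one b).2 (by linarith [a.2, hQ (P q.1, q.2)])⟩
    · rw [e2 w p hp]
      exact ⟨le_rfl, zero_le_one⟩
  have hc : Continuous E := by
    refine continuous_pi fun p => ?_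
    by_cases hp : ∃ q, g q = p
    · obtain ⟨q, rfl⟩ := hp
      simp only [e1]
      fun_prop
    · simp only [e2 _ p hp]
      exact continuous_const
  refine ⟨fun w => s (E w), hs.comp hc.continuousOn hm, fun w hw r => funext fun l => ?_⟩
  have a := hf (E w) (hm w hw) (g (r, l)) (hJ r l)
  rw [e1] at a
  have b := (hQ' (P r, l)).ne'
  rw [Y_it]
  have a' : f (P r l).2 (h^[i r + (P r l).1] (s (E w))) = (w r l + (ν (P r, l) : ℕ)) / Q := a
  rw [a']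
  field_simp
  ring

end Twx

open Twx in
theorem s_tw (he : S_emb) (hg : S_grp) : S_tw := by
  classical
  intro X _ h α β ε hβ hε ⟨κ, _, f, ⟨N₀, hup⟩, hlow⟩
  obtain ⟨m, hm⟩ := exists_nat_ge (α / ε)
  rw [div_le_iff₀ hε] at hm
  obtain ⟨L, hL⟩ := exists_nat_gt (3 * m / ε)
  have hm0 : (0 : ℝ) ≤ m := Nat.cast_nonneg m
  have hL0 : (0 : ℝ) < L := lt_of_le_of_lt (by positivity) hL
  rw [div_lt_iff₀ hε] at hL
  obtain ⟨G, ψ, ι, hG, hψ, hι, h01, hne, hun⟩ := he m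
  set ν := Fintype.equivFin ((Fin (2 * m + 1) → Fin L × κ) × Fin (2 * m + 1)) with hν
  refine ⟨(Fin (2 * m + 1) → Fin L × κ) × Fin m, inferInstance,
    fun l => ⟨fun x => ψ (Y h f ν l.1 x), hψ.comp (Y h f ν l.1).continuous⟩,
    fun l => ⟨fun x => G (Y h f ν l.1 x) l.2,
      (continuous_apply l.2).comp (hG.comp (Y h f ν l.1).continuous)⟩,
    ⟨fun l x => (h01 _).1, fun l x => (h01 _).2, fun l x hx => (hne _ hx).1 l.2⟩, ?_, ?_⟩
  · obtain ⟨N₁, hN₁⟩ := exists_nat_ge (β * L / ε)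
    rw [div_le_iff₀ hε] at hN₁
    refine ⟨N₀ + N₁ + 1, Nat.succ_pos _, fun s hs x => ?_⟩
    obtain ⟨A, hA, hle⟩ := sum_le m (N₀ + N₁ + 1) (fun i P => ψ (Y h f ν P (h^[i] x)))
      (fun i P => (h01 _).1) (fun i P => (h01 _).2) hs
    refine le_trans hle ?_
    have h1 := cnt h f ν x (N₀ + N₁ + 1) A fun a ha => ⟨(hA a ha).1, (hne _ (hA a ha).2).2⟩
    have h2 := le_trans (Nat.cast_le (α := ℝ).2 h1) (hup (N₀ + N₁ + 1 + L) (by omega) x)
    have h3 : (0 : ℝ) ≤ A.card := Nat.cast_nonneg _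
    have h4 : (0 : ℝ) ≤ N₀ := Nat.cast_nonneg _
    have h5 : (0 : ℝ) ≤ N₁ := Nat.cast_nonneg _
    push_cast at h2 ⊢
    nlinarith [mul_nonneg hε.le h4, mul_nonneg hε.le h5]
  · intro N₁
    obtain ⟨N, hN, J, hJ, hα, s, hs, hf⟩ := hlow (N₁ + L)
    obtain ⟨n, i, P, hinj, hmem, hcard⟩ := hg κ (2 * m) L N J (by exact_mod_cast hL0) hJ
    obtain ⟨s', hs', hY⟩ := sec h f ν i P hinj J hmem s hs hf
    have hι' : ∀ y : Fin m → Fin 3 → ℝ, (∀ r, Un (y r)) → ∀ l, ι y l ∈ Icc (0 : ℝ) 1 :=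
      fun y hy l => Ioo_subset_Icc_self ((hne _ (by rw [(hun y hy).1]; exact one_ne_zero)).2 l)
    set e : Fin n × Fin m ≃ Fin (n * m) := finProdFinEquiv with he'
    refine ⟨N, by omega, n * m, ?_, fun r => (i (e.symm r).1, (P (e.symm r).1, (e.symm r).2)),
      ?_, fun r => ?_, fun y => s' fun r => ι fun r' => y (e (r, r')), ?_, fun y hy r => ?_⟩
    · have h1 : ((N / L : ℕ) : ℝ) * L ≤ N := by exact_mod_cast Nat.div_mul_le_self N L
      have h2 : (L : ℝ) ≤ N := by exact_mod_cast (by omega : L ≤ N)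
      have h3 := le_trans hα (Nat.cast_le (α := ℝ).2 hcard)
      have h4 : (0 : ℝ) ≤ (N / L : ℕ) := Nat.cast_nonneg _
      have h5 : (0 : ℝ) ≤ N := Nat.cast_nonneg _
      generalize (N / L : ℕ) = D at h1 h3 h4
      push_cast at h3 ⊢
      have h6 : 3 * m * (D : ℝ) ≤ ε * N := by nlinarith
      have h7 : 3 * (m : ℝ) ≤ ε * N := by nlinarith
      have h8 : α * N ≤ m * ε * N := mul_le_mul_of_nonneg_right hm h5
      have h9 : 0 ≤ ε * N := mul_nonneg hε.le h5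
      refine le_of_mul_le_mul_left ?_ (by positivity : (0 : ℝ) < 2 * m + 1)
      nlinarith [mul_le_mul_of_nonneg_left h3 hm0, mul_le_mul_of_nonneg_left h6 hm0,
        mul_le_mul_of_nonneg_left h7 hm0, mul_nonneg hm0 h9]
    · intro r r' hr
      obtain ⟨e1, e2⟩ := Prod.mk.inj hr
      obtain ⟨e3, e4⟩ := Prod.mk.inj e2
      have e5 := @hinj ((e.symm r).1, 0) ((e.symm r').1, 0) (by simp only [e1, e3])
      exact e.symm.injective (Prod.ext (Prod.mk.inj e5).1 e4)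
    · have := hJ _ (hmem (e.symm r).1 0)
      exact lt_of_le_of_lt (Nat.le_add_right _ _) this
    · refine hs'.comp (Continuous.continuousOn ?_) fun y hy r => hι' _ fun r' => hy _
      exact continuous_pi fun r => hι.comp (continuous_pi fun r' => continuous_apply _)
    · have h1 := hY (fun r => ι fun r' => y (e (r, r'))) (fun r => hι' _ fun r' => hy _)
        (e.symm r).1
      have h2 := hun (fun r' => y (e ((e.symm r).1, r'))) fun r' => hy _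
      refine ⟨(congrArg ψ h1).trans h2.1, (congrFun ((congrArg G h1).trans h2.2) _).trans ?_⟩
      exact congrArg y (e.apply_symm_apply r)

end Vale.Agent.P093
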