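import Vale.Agent.P093.Main
import Vale.Agent.P093.Am
import Vale.Agent.P093.Band
import Vale.Agent.P093.Brg
import Vale.Agent.P093.Bu
import Vale.Agent.P093.Cov
import Vale.Agent.P093.Den
import Vale.Agent.P093.Dt
import Vale.Agent.P093.Emb
import Vale.Agent.P093.Fr
import Vale.Agent.P093.Grid
import Vale.Agent.P093.Grp
import Vale.Agent.P093.Lev
import Vale.Agent.P093.Lvl
import Vale.Agent.P093.Md
import Vale.Agent.P093.Nc
import Vale.Agent.P093.Obs
import Vale.Agent.P093.Rp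
import Vale.Agent.P093.Tw

/-! P093: all steps together. -/

namespace Vale.Agent.P093

theorem block_main {X : Type} [TopologicalSpace X] [CompactSpace X] [T2Space X] [Infinite X]
    {h : X ≃ₜ X} (hm : IsMinimal h) {M d : ℕ} (K : Geometry.SimplicialComplex ℝ (Fin M → ℝ))
    (hfin : K.faces.Finite) (hd : ∀ s ∈ K.faces, s.card ≤ d + 1)
    (hd' : ∃ s ∈ K.faces, s.card = d + 1) {e : C(X, Fin M → ℝ)} {ρ : ℝ}
    (hb : Block h K.space e ρ) {A : Type} [CStarAlgebra A] [PartialOrder A] [StarOrderedRing A]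
    {j : A →⋆ₐ[ℂ] (L2 X →L[ℂ] L2 X)} (hj : IsCrossed h j) :
    mdim h ≤ ENNReal.ofReal (ρ * d) ∧ ENNReal.ofReal (ρ * d) / 2 ≤ rc A :=
  ⟨s_md s_cov s_grid X h M d K e ρ hfin hd hb,
    rc_block s_rp s_den s_band s_dt s_am (s_nc (s_obs s_bu)) (s_tw s_emb s_grp) (s_lev s_lvl)
      s_fr hm hj K hd' hb⟩

end Vale.Agent.P093
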