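import Vale.Agent.P093.Stm

/-! P093: assembly. -/

open Filter Topology Set
open scoped ENNReal NNReal ComplexOrder

namespace Vale.Agent.P093

variable {X : Type} [TopologicalSpace X] [CompactSpace X] {h : X ≃ₜ X} {A : Type}
  [CStarAlgebra A] [PartialOrder A] [StarOrderedRing A] {j : A →⋆ₐ[ℂ] (L2 X →L[ℂ] L2 X)}

theorem not_comp (hrp : S_rp) (hden : S_den) (hband : S_band) (hdt : S_dt) (ham : S_am)
    (hnc : S_nc) (hj : IsCrossed h j) {γ t r : ℝ} (hγ : 0 ≤ γ) (hr : 0 ≤ r) (hlt : r < 2 * t - γ)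
    (htw : Tw h γ t) (hlev : ∀ R ε : ℝ, 0 ≤ R → R ≤ 1 → 0 < ε → Lev h R ε) : ¬ CompBound A r := by
  classical
  intro hc
  obtain ⟨ρ⟩ := hrp X h A j hj
  obtain ⟨Λ, _, φ, u, hf, ⟨N, N0, hN⟩, hsec⟩ := htw
  obtain ⟨Δ, hΔ⟩ : ∃ Δ, Δ = 2 * t - γ - r := ⟨_, rfl⟩
  have Δ0 : 0 < Δ := by linarith
  obtain ⟨q, hq⟩ := exists_nat_gt (γ + r + Δ / 2)
  have q0 : (0 : ℝ) < q := by linarith
  obtain ⟨g, hg, ⟨N', N0', hN'⟩, hfew⟩ := hlev ((γ + r + Δ / 2) / q) (Δ / 4 / q) (by positivity)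
    ((div_le_one q0).2 hq.le) (by positivity)
  obtain ⟨c, F, hs, hF, hc1⟩ := (ham X).1 Λ φ u _ (Fintype.equivFin (Λ × Fin 2)).symm hf
  obtain ⟨c', F', hs', hF', hc1'⟩ := (ham X).2 g q hg
  obtain ⟨a0, ha⟩ := hdt X h A j ρ _ c F hs
  obtain ⟨b0, hb⟩ := hdt X h A j ρ _ c' F' hs'
  refine hnc X h Λ φ u _ q _ (c 1) g t _ hc1 (by positivity) ?_ hsec hfew
    (hband X h A j ρ _ q (c 1) (c' 1) g (hden X h A j hj) hc1' (hc _ _ _ _ a0 b0 fun τ hτ => ?_))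
  · rw [← add_div, mul_div_cancel₀ _ q0.ne']
    linarith
  · have h1 := (ha τ hτ γ N N0).1 fun s s0 x => by simpa only [hF s s0] using hN s s0 x
    have h2 := (hb τ hτ (γ + r + Δ / 4) N' N0').2 fun x => by
      simp only [hF', ← Finset.mul_sum]
      refine le_of_eq_of_le ?_ (mul_le_mul_of_nonneg_left (hN' x) q0.le)
      field_simp
      ring
    linarith

/-- The general lower bound. -/
theorem rc_ge (hrp : S_rp) (hden : S_den) (hband : S_band) (hdt : S_dt) (ham : S_am)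
    (hnc : S_nc) (htw : S_tw) (hlev : S_lev) [T2Space X] [Infinite X] (hm : IsMinimal h)
    (hj : IsCrossed h j) {α β : ℝ} (hβ : 0 ≤ β) (hf : Fr h α β) :
    ENNReal.ofReal (α - β / 2) ≤ rc A := by
  refine le_iInf fun r => ENNReal.ofReal_le_coe.2 (le_of_not_gt fun hr => ?_)
  refine not_comp hrp hden hband hdt ham hnc hj (by linarith) r.1.coe_nonneg ?_
    (htw X h α β ((α - β / 2 - r.1) / 4) hβ (by linarith) hf)
    (fun R ε a b c => hlev X h R ε hm a b c) r.2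
  linarith

omit [CompactSpace X] in
theorem Block.nonneg {M : ℕ} {P : Set (Fin M → ℝ)} {e : C(X, Fin M → ℝ)} {ρ : ℝ} [Nonempty X]
    (hb : Block h P e ρ) {ε : ℝ} (hε : 0 < ε) : 0 ≤ ρ + ε := by
  obtain ⟨F, N, hN⟩ := hb.upper ε hε
  exact nonneg_of_mul_nonneg_left ((Nat.cast_nonneg _).trans
    (hN (N + 1) N.le_succ (Classical.arbitrary X))) (by positivity)

theorem rc_block (hrp : S_rp) (hden : S_den) (hband : S_band) (hdt : S_dt) (ham : S_am)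
    (hnc : S_nc) (htw : S_tw) (hlev : S_lev) (hfr : S_fr) [T2Space X] [Infinite X]
    (hm : IsMinimal h) (hj : IsCrossed h j) {M d : ℕ}
    (K : Geometry.SimplicialComplex ℝ (Fin M → ℝ)) (hK : ∃ s ∈ K.faces, s.card = d + 1)
    {e : C(X, Fin M → ℝ)} {ρ : ℝ} (hb : Block h K.space e ρ) :
    ENNReal.ofReal (ρ * d) / 2 ≤ rc A := by
  have k : Tendsto (fun ε : ℝ => ENNReal.ofReal ((ρ - ε) * d - (ρ + ε) * d / 2)) (𝓝[>] 0)
      (𝓝 (ENNReal.ofReal ((ρ - 0) * d - (ρ + 0) * d / 2))) :=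
    tendsto_nhdsWithin_of_tendsto_nhds
      ((ENNReal.continuous_ofReal.comp (by fun_prop)).tendsto 0)
  have e : ENNReal.ofReal (ρ * d) / 2 = ENNReal.ofReal ((ρ - 0) * d - (ρ + 0) * d / 2) := by
    rw [show (ρ - 0) * d - (ρ + 0) * d / 2 = ρ * d / 2 by ring,
      ENNReal.ofReal_div_of_pos two_pos, ENNReal.ofReal_ofNat]
  rw [e]
  refine le_of_tendsto k (eventually_nhdsWithin_of_forall fun ε hε => ?_)
  exact rc_ge hrp hden hband hdt ham hnc htw hlev hm hj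
    (mul_nonneg (hb.nonneg hε) (Nat.cast_nonneg _)) (hfr X h M d K _ ρ ε hK hb hε)

end Vale.Agent.P093
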