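import Vale.Agent.P093.Stm

/-! P093: the canonical covariant pair. -/

open Filter Topology Set
open scoped ENNReal NNReal ComplexOrder Matrix

namespace Vale.Agent.P093

namespace Rpx

variable {X : Type}

theorem summ (ξ : L2 X) : Summable fun p => ‖ξ p‖ ^ (2 : ℝ≥0∞).toReal :=
  (memℓp_gen_iff (by norm_num)).1 (lp.memℓp ξ)

theorem le_pt {m : X × ℤ → ℂ} {C : ℝ} (hm : ∀ p, ‖m p‖ ≤ C) (σ : X × ℤ ≃ X × ℤ) (ξ : L2 X)
    (p : X × ℤ) : ‖m p * ξ (σ p)‖ ^ (2 : ℝ≥0∞).toReal ≤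
      C ^ (2 : ℝ≥0∞).toReal * ‖ξ (σ p)‖ ^ (2 : ℝ≥0∞).toReal := by
  rw [← Real.mul_rpow ((norm_nonneg _).trans (hm p)) (norm_nonneg _), norm_mul]
  exact Real.rpow_le_rpow (by positivity) (mul_le_mul_of_nonneg_right (hm p) (norm_nonneg _))
    (by norm_num)

theorem summ' {m : X × ℤ → ℂ} {C : ℝ} (hm : ∀ p, ‖m p‖ ≤ C) (σ : X × ℤ ≃ X × ℤ) (ξ : L2 X) :
    Summable fun p => ‖m p * ξ (σ p)‖ ^ (2 : ℝ≥0∞).toReal :=
  Summable.of_nonneg_of_le (fun _ => by positivity) (le_pt hm σ ξ)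
    (((Equiv.summable_iff σ).2 (summ ξ)).mul_left _)

theorem exists_op {m : X × ℤ → ℂ} {C : ℝ} (hC : 0 ≤ C) (hm : ∀ p, ‖m p‖ ≤ C)
    (σ : X × ℤ ≃ X × ℤ) : ∃ T : L2 X →L[ℂ] L2 X, ∀ ξ p, T ξ p = m p * ξ (σ p) := by
  refine ⟨LinearMap.mkContinuous
    { toFun := fun ξ => ⟨fun p => m p * ξ (σ p), memℓp_gen (summ' hm σ ξ)⟩
      map_add' := fun ξ η => lp.ext (funext fun p => ?_)
      map_smul' := fun c ξ => lp.ext (funext fun p => ?_) } C fun ξ => ?_, fun _ _ => rfl⟩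
  · exact mul_add _ _ _
  · exact mul_left_comm _ _ _
  · refine lp.norm_le_of_tsum_le (by norm_num) (by positivity) ?_
    rw [Real.mul_rpow hC (norm_nonneg _), lp.norm_rpow_eq_tsum (by norm_num),
      ← Equiv.tsum_eq σ fun p => ‖ξ p‖ ^ (2 : ℝ≥0∞).toReal, ← tsum_mul_left]
    exact Summable.tsum_le_tsum (le_pt hm σ ξ) (summ' hm σ ξ)
      (((Equiv.summable_iff σ).2 (summ ξ)).mul_left _)

theorem op_ext {T T' : L2 X →L[ℂ] L2 X} (h : ∀ ξ p, T ξ p = T' ξ p) : T = T' :=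
  ContinuousLinearMap.ext fun ξ => lp.ext (funext (h ξ))

theorem star_op {T T' : L2 X →L[ℂ] L2 X} {m : X × ℤ → ℂ} {σ : X × ℤ ≃ X × ℤ}
    (h : ∀ ξ p, T ξ p = m p * ξ (σ p))
    (h' : ∀ ξ p, T' ξ p = star (m (σ.symm p)) * ξ (σ.symm p)) : star T = T' := by
  rw [ContinuousLinearMap.star_eq_adjoint, eq_comm, ContinuousLinearMap.eq_adjoint_iff]
  intro ξ η
  rw [lp.inner_eq_tsum, lp.inner_eq_tsum, ← Equiv.tsum_eq σ]
  refine tsum_congr fun p => ?_
  rw [h, h', σ.symm_apply_apply]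
  simp [mul_assoc, mul_comm, mul_left_comm]

/-- The shift of the second coordinate. -/
def sh (X : Type) : X × ℤ ≃ X × ℤ := (Equiv.refl X).prodCongr (Equiv.subRight 1)

end Rpx

theorem s_rp : S_rp := by
  intro X _ _ h A _ j hj
  have hg : ∀ T ∈ gens h, ∃ a, j a = T := fun T hT => by
    have : T ∈ range j := hj.2 ▸ subset_closure (StarAlgebra.subset_adjoin ℂ _ hT)
    exact this
  have h1 : ∀ f : C(X, ℂ), ∃ a, ∀ (ξ : L2 X) (p : X × ℤ),
      j a ξ p = f ((h ^ p.2) p.1) * ξ p := fun f => by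
    obtain ⟨T, hT⟩ := Rpx.exists_op (m := fun p => f ((h ^ p.2) p.1)) (norm_nonneg f)
      (fun p => f.norm_coe_le_norm _) (Equiv.refl _)
    obtain ⟨a, rfl⟩ := hg T (Or.inl ⟨f, hT⟩)
    exact ⟨a, hT⟩
  choose π hπ using h1
  obtain ⟨U, hU⟩ := Rpx.exists_op (m := fun _ : X × ℤ => (1 : ℂ)) zero_le_one
    (fun _ => norm_one.le) (Rpx.sh X)
  obtain ⟨U', hU'⟩ := Rpx.exists_op (m := fun _ : X × ℤ => star (1 : ℂ)) zero_le_one
    (fun _ => by simp) (Rpx.sh X).symm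
  have hs := Rpx.star_op hU hU'
  obtain ⟨u, rfl⟩ := hg U (Or.inr fun ξ p => (hU ξ p).trans (one_mul _))
  have a1 : ∀ (ξ : L2 X) (p : X × ℤ), j u ξ p = ξ (p.1, p.2 - 1) := fun ξ p =>
    (hU ξ p).trans (one_mul _)
  have a2 : ∀ (ξ : L2 X) (p : X × ℤ), j (star u) ξ p = ξ (p.1, p.2 + 1) := fun ξ p => by
    rw [map_star, hs, hU', star_one, one_mul]
    rfl
  have ex : ∀ a b : A, (∀ (ξ : L2 X) (p : X × ℤ), j a ξ p = j b ξ p) → a = b := fun a b k =>
    hj.1 (Rpx.op_ext k)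
  refine ⟨{ π :=
              { toFun := π
                map_one' := ex _ _ fun ξ p => by simp [hπ]
                map_mul' := fun f g => ex _ _ fun ξ p => by simp [hπ, mul_assoc]
                map_zero' := ex _ _ fun ξ p => by simp [hπ]
                map_add' := fun f g => ex _ _ fun ξ p => by simp [hπ, add_mul]
                commutes' := fun c => ex _ _ fun ξ p => by
                  simp [hπ, Algebra.algebraMap_eq_smul_one]
                map_star' := fun f => hj.1 ?_ }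
            u := u
            jπ := hπ
            uu := ex _ _ fun ξ p => ?_
            cov := fun f => ex _ _ fun ξ p => ?_ }⟩
  · rw [map_star]
    exact (Rpx.star_op (σ := Equiv.refl _) (hπ f) (hπ (star f))).symm
  · rw [map_mul, ContinuousLinearMap.mul_apply, a1, a2]
    simp
  · change j (star u * π f * u) ξ p = j (π _) ξ p
    rw [map_mul, map_mul, ContinuousLinearMap.mul_apply, ContinuousLinearMap.mul_apply, a2, hπ, hπ,
      a1, zp_succ]
    simp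

end Vale.Agent.P093
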