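import Vale.Agent.P093.Defs
import Vale.Agent.P173.BUTop

/-! P093: internal definitions and statements of the steps. -/

open Filter Topology Set
open scoped ENNReal NNReal ComplexOrder Matrix

namespace Vale.Agent.P093

open Vale.Agent.P173 (Sph)

/-- The Hilbert space of the regular representation. -/
noncomputable abbrev L2 (X : Type) := lp (fun _ : X × ℤ => ℂ) 2

section Reg
variable {X : Type} [TopologicalSpace X]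

/-- The multiplication operators and the shift of the regular representation. -/
def gens (h : X ≃ₜ X) : Set (L2 X →L[ℂ] L2 X) :=
  {T | ∃ f : C(X, ℂ), ∀ (ξ : L2 X) (p : X × ℤ), T ξ p = f ((h ^ p.2) p.1) * ξ p} ∪
    {T | ∀ (ξ : L2 X) (p : X × ℤ), T ξ p = ξ (p.1, p.2 - 1)}

/-- `j` identifies `A` with the crossed product. -/
def IsCrossed (h : X ≃ₜ X) {A : Type} [CStarAlgebra A] (j : A →⋆ₐ[ℂ] (L2 X →L[ℂ] L2 X)) : Prop :=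
  Function.Injective j ∧ range j = closure (StarAlgebra.adjoin ℂ (gens h) : Set (L2 X →L[ℂ] L2 X))

end Reg

/-! ### Iterates -/

section It
variable {X : Type} [TopologicalSpace X] (h : X ≃ₜ X)

theorem zp_add (m n : ℤ) (x : X) : (h ^ (m + n)) x = (h ^ m) ((h ^ n) x) := by
  rw [zpow_add]; rfl

theorem zp_succ (n : ℤ) (x : X) : (h ^ (n + 1)) x = h ((h ^ n) x) := by
  rw [add_comm, zp_add, zpow_one]

theorem zp_nat (n : ℕ) (x : X) : (h ^ (n : ℤ)) x = h^[n] x := by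
  induction n with
  | zero => rfl
  | succ n ih => rw [Nat.cast_succ, zp_succ, ih, Function.iterate_succ_apply']

end It

/-! ### Topology -/

/-- Unit vectors. -/
def Un (u : Fin 3 → ℝ) : Prop := u 0 ^ 2 + u 1 ^ 2 + u 2 ^ 2 = 1

/-- The rank one projection attached to a unit vector. -/
noncomputable def pr (u : Fin 3 → ℝ) : Matrix (Fin 2) (Fin 2) ℂ :=
  !![(1 + u 0) / 2, (u 1 + Complex.I * u 2) / 2; (u 1 - Complex.I * u 2) / 2, (1 - u 0) / 2]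

theorem pr_mul {u : Fin 3 → ℝ} (hu : Un u) : pr u * pr u = pr u := by
  have h : (u 0 : ℂ) ^ 2 + u 1 ^ 2 + u 2 ^ 2 = 1 := by exact_mod_cast hu
  have e := Complex.I_mul_I
  ext i j
  fin_cases i <;> fin_cases j <;> simp [pr, Matrix.mul_apply, Fin.sum_univ_two]
  · linear_combination h / 4 - (u 2 : ℂ) ^ 2 / 4 * e
  · ring
  · ring
  · linear_combination h / 4 - (u 2 : ℂ) ^ 2 / 4 * e

theorem pr_star (u : Fin 3 → ℝ) (i j : Fin 2) : star (pr u i j) = pr u j i := by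
  fin_cases i <;> fin_cases j <;> simp [pr, sub_eq_add_neg]

theorem pr_tr (u : Fin 3 → ℝ) : ∑ i, pr u i i = 1 := by
  simp [pr, Fin.sum_univ_two]; ring

theorem pr_cont (i j : Fin 2) : Continuous fun u => pr u i j := by
  fin_cases i <;> fin_cases j <;> simp [pr] <;> fun_prop

/-- A product of subspheres. -/
def Sub (m d : ℕ) (ν : Fin m → ℕ) : Set (Fin m → Fin (d + 1) → ℝ) :=
  {y | y ∈ Sph m d ∧ ∀ i (a : Fin (d + 1)), ν i < a.val → y i a = 0}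

/-- Borsuk-Ulam for triangular characters. -/
def S_bu : Prop := ∀ (m d : ℕ) (κ : Type) [Fintype κ] (χ : κ → Finset (Fin m)) (j : κ → Fin m)
  (ω ν : Fin m → ℕ) (Φ : (Fin m → Fin (d + 1) → ℝ) → κ → ℝ), (∀ c, j c ∈ χ c) →
  (∀ c, ∀ i ∈ χ c, i ≠ j c → ω i < ω (j c)) →
  (∀ i, (Finset.univ.filter fun c => j c = i).card ≤ ν i) → (∀ i, ν i ≤ d) →
  ContinuousOn Φ (Sub m d ν) →
  (∀ y ∈ Sub m d ν, ∀ i c, Φ (Function.update y i (-y i)) c = if i ∈ χ c then -Φ y c else Φ y c) →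
  ∃ y ∈ Sub m d ν, Φ y = 0

/-- A sum of `n` Hopf line bundles does not embed in a trivial bundle of rank `< 2 n`. -/
def S_obs : Prop := ∀ (n K : ℕ) (T : (Fin n → Fin 3 → ℝ) → (Fin n → Fin 2 → ℂ) → Fin K → ℂ),
  K < 2 * n →
  ContinuousOn (fun z : (Fin n → Fin 3 → ℝ) × (Fin n → Fin 2 → ℂ) => T z.1 z.2)
    {z | ∀ r, Un (z.1 r)} →
  (∀ y w, T y (-w) = -T y w) →
  ∃ y w, (∀ r, Un (y r)) ∧ T y w = 0 ∧ ∃ r, pr (y r) *ᵥ w r ≠ 0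

/-- A product of `m` spheres inside a cube of dimension `2 m + 1`. -/
def S_emb : Prop := ∀ m : ℕ, ∃ (G : (Fin (2 * m + 1) → ℝ) → Fin m → Fin 3 → ℝ)
  (ψ : (Fin (2 * m + 1) → ℝ) → ℝ) (ι : (Fin m → Fin 3 → ℝ) → Fin (2 * m + 1) → ℝ),
  Continuous G ∧ Continuous ψ ∧ Continuous ι ∧ (∀ v, 0 ≤ ψ v ∧ ψ v ≤ 1) ∧
  (∀ v, ψ v ≠ 0 → (∀ r, Un (G v r)) ∧ ∀ l, v l ∈ Ioo (0 : ℝ) 1) ∧
  ∀ y, (∀ r, Un (y r)) → ψ (ι y) = 1 ∧ G (ι y) = y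

/-- Grouping a set of coordinates into short patterns. -/
def S_grp : Prop := ∀ (κ : Type) (c L N : ℕ) (J : Finset (ℕ × κ)), 0 < L → (∀ p ∈ J, p.1 < N) →
  ∃ (n : ℕ) (i : Fin n → ℕ) (P : Fin n → Fin (c + 1) → Fin L × κ),
    Function.Injective (fun q : Fin n × Fin (c + 1) =>
      ((i q.1 + (P q.1 q.2).1, (P q.1 q.2).2) : ℕ × κ)) ∧
    (∀ r l, ((i r + (P r l).1, (P r l).2) : ℕ × κ) ∈ J) ∧ J.card ≤ (c + 1) * n + c * (N / L + 1)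

section Sys
variable {X : Type} [TopologicalSpace X]

/-- Free coordinates of density `α`, visits to the open cube of density at most `β`. -/
def Fr (h : X ≃ₜ X) (α β : ℝ) : Prop := ∃ (κ : Type) (_ : Fintype κ) (f : κ → C(X, ℝ)),
  (∃ N₀ : ℕ, ∀ N, N₀ ≤ N → ∀ x,
    ({p : ℕ × κ | p.1 < N ∧ f p.2 (h^[p.1] x) ∈ Ioo (0 : ℝ) 1}.ncard : ℝ) ≤ β * N) ∧
  ∀ N₁ : ℕ, ∃ N : ℕ, N₁ ≤ N ∧ ∃ J : Finset (ℕ × κ), (∀ p ∈ J, p.1 < N) ∧ α * N ≤ J.card ∧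
    ∃ s : (ℕ × κ → ℝ) → X, ContinuousOn s {y | ∀ p, y p ∈ Icc (0 : ℝ) 1} ∧
      ∀ y, (∀ p, y p ∈ Icc (0 : ℝ) 1) → ∀ p ∈ J, f p.2 (h^[p.1] (s y)) = y p

/-- Cut off functions with unit vector fields on their supports. -/
structure Fld {Λ : Type} (φ : Λ → C(X, ℝ)) (u : Λ → C(X, Fin 3 → ℝ)) : Prop where
  nn : ∀ l x, 0 ≤ φ l x
  le : ∀ l x, φ l x ≤ 1
  un : ∀ l x, φ l x ≠ 0 → Un (u l x)

/-- Many independent spheres along orbits. -/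
def Sec (h : X ≃ₜ X) {Λ : Type} (φ : Λ → C(X, ℝ)) (u : Λ → C(X, Fin 3 → ℝ)) (t : ℝ) : Prop :=
  ∀ N₁ : ℕ, ∃ N : ℕ, N₁ ≤ N ∧ ∃ n : ℕ, t * N ≤ n ∧ ∃ pos : Fin n → ℕ × Λ,
    Function.Injective pos ∧ (∀ r, (pos r).1 < N) ∧ ∃ s : (Fin n → Fin 3 → ℝ) → X,
      ContinuousOn s {y | ∀ r, Un (y r)} ∧ ∀ y, (∀ r, Un (y r)) → ∀ r,
        φ (pos r).2 (h^[(pos r).1] (s y)) = 1 ∧ u (pos r).2 (h^[(pos r).1] (s y)) = y r

/-- Twisted data. -/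
def Tw (h : X ≃ₜ X) (γ t : ℝ) : Prop := ∃ (Λ : Type) (_ : Fintype Λ) (φ : Λ → C(X, ℝ))
  (u : Λ → C(X, Fin 3 → ℝ)), Fld φ u ∧
  (∃ N : ℕ, 0 < N ∧ ∀ s : ℝ, 0 < s → ∀ x,
    ∑ i ∈ Finset.range N, ∑ l, φ l (h^[i] x) ^ s ≤ γ * N) ∧ Sec h φ u t

/-- Few visits to the support. -/
def Few (h : X ≃ₜ X) (g : C(X, ℝ)) (β : ℝ) : Prop :=
  ∃ N₁ : ℕ, ∀ N, N₁ ≤ N → ∀ x, ({j : ℕ | j < N ∧ g (h^[j] x) ≠ 0}.ncard : ℝ) ≤ β * N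

/-- An open set with uniform density of visits. -/
def Lev (h : X ≃ₜ X) (R ε : ℝ) : Prop := ∃ g : C(X, ℝ), (∀ x, 0 ≤ g x ∧ g x ≤ 1) ∧
  (∃ N : ℕ, 0 < N ∧ ∀ x, (R - ε) * N ≤ ∑ j ∈ Finset.range N, g (h^[j] x)) ∧ Few h g (R + ε)

open Classical in
/-- Basis vectors. -/
noncomputable def dl (q : X × ℤ) : L2 X := lp.single 2 q 1

/-- Banded operators with continuous coefficients. -/
def Band (T : L2 X →L[ℂ] L2 X) : Prop := ∃ R : ℕ,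
  (∀ p q : X × ℤ, (p.1 ≠ q.1 ∨ (R : ℤ) < |p.2 - q.2|) → T (dl q) p = 0) ∧
  ∀ i k : ℤ, Continuous fun x => T (dl (x, i)) (x, k)

/-- The canonical covariant pair. -/
structure Rp (h : X ≃ₜ X) {A : Type} [CStarAlgebra A] (j : A →⋆ₐ[ℂ] (L2 X →L[ℂ] L2 X)) where
  π : C(X, ℂ) →⋆ₐ[ℂ] A
  u : A
  jπ : ∀ (f : C(X, ℂ)) (ξ : L2 X) (p : X × ℤ), j (π f) ξ p = f ((h ^ p.2) p.1) * ξ p
  uu : u * star u = 1
  cov : ∀ f : C(X, ℂ), star u * π f * u = π (f.comp ⟨h, h.continuous⟩)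

/-- Banded elements are dense. -/
def Den {A : Type} [CStarAlgebra A] (j : A →⋆ₐ[ℂ] (L2 X →L[ℂ] L2 X)) : Prop :=
  ∀ (a : A) (ε : ℝ), 0 < ε → ∃ v, Band (j v) ∧ ‖a - v‖ < ε

/-- Matrices of functions as matrices over `A`. -/
noncomputable def mat {A : Type} [CStarAlgebra A] (π : C(X, ℂ) →⋆ₐ[ℂ] A) {p : ℕ}
    (a : Fin p → Fin p → C(X, ℂ)) : CStarMatrix (Fin p) (Fin p) A :=
  CStarMatrix.ofMatrix (Matrix.of fun s t => π (a s t))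

/-- The finite dimensional consequence of `a ≾ g ⊗ 1_q`. -/
def FinC (h : X ≃ₜ X) {p : ℕ} (a : Fin p → Fin p → C(X, ℂ)) (g : C(X, ℝ)) (q : ℕ) : Prop :=
  ∃ (R : ℕ) (V : X → ℤ → Fin q → ℕ → Fin p → ℂ), (∀ k s i t, Continuous fun x => V x k s i t) ∧
    ∀ (x : X) (N : ℕ) (ξ : ℕ → Fin p → ℂ),
      (∀ k ∈ Finset.Ico (-(R : ℤ)) (N + R), ∀ s,
        (g ((h ^ k) x) : ℂ) * ∑ i ∈ Finset.range N, ∑ t, V x k s i t * ξ i t = 0) →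
      (∑ i ∈ Finset.range N, ∑ t, ∑ t', star (ξ i t) * a t t' (h^[i] x) * ξ i t').re ≤
        1 / 2 * ∑ i ∈ Finset.range N, ∑ t, ‖ξ i t‖ ^ 2

/-- A one parameter semigroup of positive matrix functions with trace `F`. -/
structure SG {p : ℕ} (c : ℝ → Fin p → Fin p → C(X, ℂ)) (F : ℝ → C(X, ℝ)) : Prop where
  mul : ∀ s t : ℝ, 0 < s → 0 < t → ∀ i k, ∑ l, c s i l * c t l k = c (s + t) i k
  sa : ∀ s : ℝ, 0 < s → ∀ i k, star (c s i k) = c s k i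
  tr : ∀ s : ℝ, 0 < s → ∀ x, ∑ i, c s i i x = F s x
  anti : ∀ s t : ℝ, 0 < s → s ≤ t → ∀ x, F t x ≤ F s x
  bd : ∃ B : ℝ, ∀ s : ℝ, 0 < s → ∀ x, F s x ≤ B

end Sys

def S_tw : Prop := ∀ (X : Type) [TopologicalSpace X] (h : X ≃ₜ X) (α β ε : ℝ), 0 ≤ β → 0 < ε →
  Fr h α β → Tw h (β / 2 + ε) (α / 2 - ε)

def S_fr : Prop := ∀ (X : Type) [TopologicalSpace X] [CompactSpace X] (h : X ≃ₜ X) (M d : ℕ)
  (K : Geometry.SimplicialComplex ℝ (Fin M → ℝ)) (e : C(X, Fin M → ℝ)) (ρ ε : ℝ),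
  (∃ s ∈ K.faces, s.card = d + 1) → Block h K.space e ρ → 0 < ε →
  Fr h ((ρ - ε) * d) ((ρ + ε) * d)

def S_cov : Prop := ∀ (X : Type) [TopologicalSpace X] [CompactSpace X] (ι : Type) [Fintype ι]
  (G : X → ι → ℝ) (η : ℝ) (D : ℕ), Continuous G → 0 < η →
  (∀ x, {i | ∃ k : ℤ, |G x i - k| < η}.ncard ≤ D) →
  ∃ 𝒲 : Finset (Set X), IsCover 𝒲 ∧ ord 𝒲 ≤ D ∧
    ∀ W ∈ 𝒲, ∀ x ∈ W, ∀ x' ∈ W, ∀ i, |G x i - G x' i| ≤ 1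

def S_grid : Prop := ∀ (M d : ℕ) (𝒮 : Set (Finset (Fin M → ℝ))) (F : Finset (Fin M → ℝ)) (c : ℝ),
  𝒮.Finite → (∀ s ∈ 𝒮, s.card ≤ d + 1) → ∃ (θ : Fin M → ℝ) (η : ℝ), 0 < η ∧
    (∀ s ∈ 𝒮, ∀ z ∈ convexHull ℝ (s : Set (Fin M → ℝ)),
      {a | ∃ k : ℤ, |c * z a - θ a - k| < η}.ncard ≤ d) ∧
    ∀ z ∈ F, ∀ a, ∀ k : ℤ, η ≤ |c * z a - θ a - k|

def S_md : Prop := ∀ (X : Type) [TopologicalSpace X] [CompactSpace X] [T2Space X] [Nonempty X]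
  (h : X ≃ₜ X) (M d : ℕ) (K : Geometry.SimplicialComplex ℝ (Fin M → ℝ)) (e : C(X, Fin M → ℝ))
  (ρ : ℝ), K.faces.Finite → (∀ s ∈ K.faces, s.card ≤ d + 1) → Block h K.space e ρ →
  mdim h ≤ ENNReal.ofReal (ρ * d)

/-- The level function of Lindenstrauss. -/
def S_lvl : Prop := ∀ (X : Type) [TopologicalSpace X] [CompactSpace X] [T2Space X] [Infinite X]
  (h : X ≃ₜ X) (M : ℕ), IsMinimal h → ∃ (n : C(X, ℝ)) (U : Set X),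
    (∀ x, h x ∉ U → n (h x) = n x + 1) ∧ ∀ x ∈ U, ∀ j, 0 < j → j < M → h^[j] x ∉ U

def S_lev : Prop := ∀ (X : Type) [TopologicalSpace X] [CompactSpace X] [T2Space X] [Infinite X]
  (h : X ≃ₜ X) (R ε : ℝ), IsMinimal h → 0 ≤ R → R ≤ 1 → 0 < ε → Lev h R ε

def S_rp : Prop := ∀ (X : Type) [TopologicalSpace X] [CompactSpace X] (h : X ≃ₜ X) (A : Type)
  [CStarAlgebra A] (j : A →⋆ₐ[ℂ] (L2 X →L[ℂ] L2 X)), IsCrossed h j → Nonempty (Rp h j)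

def S_den : Prop := ∀ (X : Type) [TopologicalSpace X] (h : X ≃ₜ X) (A : Type)
  [CStarAlgebra A] (j : A →⋆ₐ[ℂ] (L2 X →L[ℂ] L2 X)), IsCrossed h j → Den j

def S_band : Prop := ∀ (X : Type) [TopologicalSpace X] (h : X ≃ₜ X) (A : Type)
  [CStarAlgebra A] [PartialOrder A] [StarOrderedRing A] (j : A →⋆ₐ[ℂ] (L2 X →L[ℂ] L2 X))
  (ρ : Rp h j) (p q : ℕ) (a : Fin p → Fin p → C(X, ℂ)) (b : Fin q → Fin q → C(X, ℂ))
  (g : C(X, ℝ)), Den j → (∀ s t x, b s t x = if s = t then (g x : ℂ) else 0) →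
  Cuntz (mat ρ.π a) (mat ρ.π b) → FinC h a g q

def S_dt : Prop := ∀ (X : Type) [TopologicalSpace X] [CompactSpace X] (h : X ≃ₜ X) (A : Type)
  [CStarAlgebra A] [PartialOrder A] [StarOrderedRing A] (j : A →⋆ₐ[ℂ] (L2 X →L[ℂ] L2 X))
  (ρ : Rp h j) (p : ℕ) (c : ℝ → Fin p → Fin p → C(X, ℂ)) (F : ℝ → C(X, ℝ)), SG c F →
  0 ≤ mat ρ.π (c 1) ∧ ∀ τ : A →ₗ[ℂ] ℂ, IsTrace τ → ∀ (γ : ℝ) (N : ℕ), 0 < N →
    ((∀ s : ℝ, 0 < s → ∀ x, ∑ i ∈ Finset.range N, F s (h^[i] x) ≤ γ * N) →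
      dimFn τ (mat ρ.π (c 1)) ≤ γ) ∧
    ((∀ x, γ * N ≤ ∑ i ∈ Finset.range N, F 1 (h^[i] x)) → γ ≤ dimFn τ (mat ρ.π (c 1)))

/-- The two semigroups. -/
def S_am : Prop := ∀ (X : Type) [TopologicalSpace X],
  (∀ (Λ : Type) [Fintype Λ] [DecidableEq Λ] (φ : Λ → C(X, ℝ)) (u : Λ → C(X, Fin 3 → ℝ)) (p : ℕ)
    (σ : Fin p ≃ Λ × Fin 2), Fld φ u →
    ∃ (c : ℝ → Fin p → Fin p → C(X, ℂ)) (F : ℝ → C(X, ℝ)), SG c F ∧
      (∀ s : ℝ, 0 < s → ∀ x, F s x = ∑ l, φ l x ^ s) ∧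
      ∀ t t' x, c 1 t t' x = if (σ t).1 = (σ t').1 then
        φ (σ t).1 x * pr (u (σ t).1 x) (σ t).2 (σ t').2 else 0) ∧
  ∀ (g : C(X, ℝ)) (q : ℕ), (∀ x, 0 ≤ g x ∧ g x ≤ 1) →
    ∃ (c : ℝ → Fin q → Fin q → C(X, ℂ)) (F : ℝ → C(X, ℝ)), SG c F ∧ (∀ x, F 1 x = q * g x) ∧
      ∀ s t x, c 1 s t x = if s = t then (g x : ℂ) else 0

/-- The obstruction to comparison. -/
def S_nc : Prop := ∀ (X : Type) [TopologicalSpace X] (h : X ≃ₜ X) (Λ : Type) [Fintype Λ]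
  [DecidableEq Λ] (φ : Λ → C(X, ℝ)) (u : Λ → C(X, Fin 3 → ℝ)) (p q : ℕ) (σ : Fin p ≃ Λ × Fin 2)
  (a : Fin p → Fin p → C(X, ℂ)) (g : C(X, ℝ)) (t β : ℝ),
  (∀ k k' x, a k k' x = if (σ k).1 = (σ k').1 then
    φ (σ k).1 x * pr (u (σ k).1 x) (σ k).2 (σ k').2 else 0) →
  0 ≤ β → q * β < 2 * t → Sec h φ u t → Few h g β → FinC h a g q → False

end Vale.Agent.P093
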